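import Vale.Agent.P197.Ker

namespace Vale.Agent.P197

open Finset Function Equiv

/-- Extension of a finite word to all natural indices. -/
def ext {σ : Type*} [Inhabited σ] {n : ℕ} (c : Fin n → σ) (j : ℕ) : σ :=
  if h : j < n then c ⟨j, h⟩ else default

lemma ext_val {σ : Type*} [Inhabited σ] {n : ℕ} (c : Fin n → σ) (p : Fin n) : ext c p = c p := by
  simp [ext]

lemma ext_snoc_lt {σ : Type*} [Inhabited σ] {n : ℕ} (c : Fin n → σ) (x : σ) {j : ℕ} (h : j < n) :
    ext (Fin.snoc (α := fun _ => σ) c x) j = ext c j := by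
  unfold ext
  rw [dif_pos h, dif_pos (Nat.lt_succ_of_lt h)]
  exact Fin.snoc_castSucc (α := fun _ => σ) x c ⟨j, h⟩

lemma ext_snoc_last {σ : Type*} [Inhabited σ] {n : ℕ} (c : Fin n → σ) (x : σ) :
    ext (Fin.snoc (α := fun _ => σ) c x) n = x := by
  unfold ext
  rw [dif_pos (Nat.lt_succ_self n)]
  exact Fin.snoc_last (α := fun _ => σ) x c

/-- Transfer vectors. -/
def trv {σ : Type*} [Fintype σ] (init : σ → ℝ) (w : ℕ → σ → ℝ) (e : ℕ → σ → σ → ℝ) : ℕ → σ → ℝ
  | 0 => fun x => init x * w 0 x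
  | p + 1 => fun y => (∑ x, trv init w e p x * e p x y) * w (p + 1) y

lemma transfer {σ : Type*} [Fintype σ] [Inhabited σ] [DecidableEq σ] (init : σ → ℝ)
    (w : ℕ → σ → ℝ) (e : ℕ → σ → σ → ℝ) (n : ℕ) : ∀ fin : σ → ℝ,
    ∑ c : Fin (n + 1) → σ, init (ext c 0) * (∏ p ∈ range (n + 1), w p (ext c p)) *
      (∏ p ∈ range n, e p (ext c p) (ext c (p + 1))) * fin (ext c n)
      = ∑ y, trv init w e n y * fin y := by
  induction n with
  | zero =>
    intro fin
    change ∑ c : Fin 1 → σ, _ = _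
    rw [← Equiv.sum_comp (Equiv.funUnique (Fin 1) σ).symm]
    simp [trv, ext]
  | succ n ih =>
    intro fin
    rw [← Equiv.sum_comp (Fin.snocEquiv (fun _ => σ)), Fintype.sum_prod_type]
    refine sum_congr rfl fun y _ => ?_
    have := ih (fun x => e n x y * w (n + 1) y * fin y)
    simp only [trv, sum_mul]
    simp_rw [mul_assoc] at this ⊢
    rw [← this]
    refine sum_congr rfl fun c _ => ?_
    have e0 : (Fin.snocEquiv (fun _ => σ)) (y, c) = Fin.snoc (α := fun _ => σ) c y := rfl
    have e1 : ∏ p ∈ range (n + 1), w p (ext (Fin.snoc (α := fun _ => σ) c y) p)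
        = ∏ p ∈ range (n + 1), w p (ext c p) :=
      prod_congr rfl (fun p hp => by rw [ext_snoc_lt _ _ (mem_range.1 hp)])
    have e2 : ∏ p ∈ range n, e p (ext (Fin.snoc (α := fun _ => σ) c y) p)
        (ext (Fin.snoc (α := fun _ => σ) c y) (p + 1))
        = ∏ p ∈ range n, e p (ext c p) (ext c (p + 1)) :=
      prod_congr rfl (fun p hp => by
        have := mem_range.1 hp
        rw [ext_snoc_lt _ _ (by omega : p < n + 1), ext_snoc_lt _ _ (by omega : p + 1 < n + 1)])
    rw [e0, prod_range_succ (fun p => w p (ext (Fin.snoc (α := fun _ => σ) c y) p)),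
      prod_range_succ (fun p => e p (ext (Fin.snoc (α := fun _ => σ) c y) p)
        (ext (Fin.snoc (α := fun _ => σ) c y) (p + 1))), e1, e2, ext_snoc_last,
      ext_snoc_lt _ _ (Nat.succ_pos n), ext_snoc_lt _ _ (Nat.lt_succ_self n)]
    ring

/-- The four matrices. -/
def NN : Fin 4 → Fin 2 → Fin 2 → ℤ :=
  ![![![1, 1], ![0, 1]], ![![1, -1], ![0, -1]], ![![1, 1], ![1, 0]], ![![-1, 1], ![-1, 0]]]

/-- The symplectic form. -/
def JJ : Fin 2 → Fin 2 → ℤ := ![![0, 1], ![-1, 0]]

/-- One transfer step. -/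
def stp (odd : Bool) (S : Fin 2 → ℤ) (i : Fin 4) : Fin 2 → ℤ := fun y =>
  if odd then ∑ a, ∑ b, S b * NN i a b * JJ a y else ∑ a, ∑ b, S a * NN i a b * JJ y b

/-- Commutation signs. -/
def eta (x y : Fin 4) : ℤ := if y < x then -1 else if x < y then 1 else ![1, -1, -1, 1] x

/-- Normal forms. -/
def th (e : Fin 4 → Bool) : Fin 2 → ℤ :=
  match e 0, e 1, e 2, e 3 with
  | false, false, false, false => ![1, 0]
  | false, false, false, true => ![1, 1]
  | false, false, true, false => ![1, -1]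
  | false, false, true, true => ![1, -2]
  | false, true, false, false => ![-1, -1]
  | false, true, false, true => ![-1, 0]
  | false, true, true, false => ![1, -2]
  | false, true, true, true => ![1, -1]
  | true, false, false, false => ![1, -1]
  | true, false, false, true => ![1, -2]
  | true, false, true, false => ![-1, 0]
  | true, false, true, true => ![-1, -1]
  | true, true, false, false => ![-1, 2]
  | true, true, false, true => ![-1, 1]
  | true, true, true, false => ![-1, -1]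
  | true, true, true, true => ![-1, 0]

/-- Total parity. -/
def par (e : Fin 4 → Bool) : Bool := xor (xor (e 0) (e 1)) (xor (e 2) (e 3))

/-- Change one parity. -/
def tog (e : Fin 4 → Bool) (i : Fin 4) : Fin 4 → Bool := fun a => if a = i then !e a else e a

lemma stp_th : ∀ (e : Fin 4 → Bool) (i : Fin 4) (y : Fin 2),
    stp (par e) (th e) i y = (∏ a, if e a then eta a i else 1) * th (tog e i) y := by
  decide +kernel

lemma par_tog : ∀ (e : Fin 4 → Bool) (i : Fin 4), par (tog e i) = !par e := by decide +kernel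

lemma th_ne : ∀ e : Fin 4 → Bool, par e = true → th e 1 ≠ 0 := by decide +kernel

lemma eta_tog : ∀ (e : Fin 4 → Bool) (i x : Fin 4), (∏ a, if tog e i a then eta a x else 1)
    = (∏ a, if e a then eta a x else 1) * eta i x := by decide +kernel

lemma eta_ne : ∀ x y : Fin 4, eta x y ≠ 0 := by decide +kernel

lemma eta_anti : ∀ x y : Fin 4, x ≠ y → eta x y = - eta y x := by decide +kernel

/-- Parities of the label counts among the first `p` letters. -/
def prt (u : ℕ → Fin 4) (p : ℕ) : Fin 4 → Bool :=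
  fun a => ((range p).filter (fun i => u i = a)).card.bodd

lemma prt_succ (u : ℕ → Fin 4) (p : ℕ) : prt u (p + 1) = tog (prt u p) (u p) := by
  funext a
  unfold prt tog
  rw [range_add_one, filter_insert]
  by_cases h : a = u p
  · subst h; simp
  · rw [if_neg (fun e => h e.symm), if_neg h]

lemma prt_zero (u : ℕ → Fin 4) : prt u 0 = fun _ => false := by funext a; simp [prt]

lemma par_prt (u : ℕ → Fin 4) (p : ℕ) : par (prt u p) = p.bodd := by
  induction p with
  | zero => rw [prt_zero]; rfl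
  | succ p ih => rw [prt_succ, par_tog, ih, Nat.bodd_succ]

lemma eta_prt (u : ℕ → Fin 4) (p : ℕ) (x : Fin 4) :
    (∏ a, if prt u p a then eta a x else 1) = ∏ i ∈ range p, eta (u i) x := by
  induction p with
  | zero => simp [prt_zero]
  | succ p ih => rw [prt_succ, eta_tog, ih, prod_range_succ]

/-- Reduced transfer vectors. -/
def sq2 (u : ℕ → Fin 4) : ℕ → Fin 2 → ℤ
  | 0 => ![1, 0]
  | p + 1 => stp p.bodd (sq2 u p) (u p)

lemma sq2_eq (u : ℕ → Fin 4) (p : ℕ) (y : Fin 2) :
    sq2 u p y = (∏ j ∈ range p, ∏ i ∈ range j, eta (u i) (u j)) * th (prt u p) y := by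
  induction p generalizing y with
  | zero => rw [prt_zero]; simp [sq2, th]
  | succ p ih =>
    rw [prod_range_succ, mul_assoc, prt_succ, ← eta_prt, ← stp_th, par_prt]
    simp only [sq2, stp, ih]
    split_ifs <;> simp only [mul_sum, mul_assoc]

/-- Edge weights along the rim. -/
def edge (p : ℕ) (x y : Fin 2 × Fin 2) : ℝ := if p.bodd then JJ x.1 y.1 else JJ y.2 x.2

lemma trv_eq (u : ℕ → Fin 4) (p : ℕ) (x : Fin 2 × Fin 2) :
    trv (fun x : Fin 2 × Fin 2 => if x.1 = 0 then (1 : ℝ) else 0)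
      (fun p x => (NN (u p) x.1 x.2 : ℝ)) edge p x
      = (sq2 u p (if p.bodd then x.2 else x.1) : ℝ) * NN (u p) x.1 x.2 := by
  induction p generalizing x with
  | zero =>
    rcases x with ⟨a, b⟩
    fin_cases a <;> simp [trv, sq2]
  | succ p ih =>
    simp only [trv, ih, sq2, Nat.bodd_succ, stp, edge, Fintype.sum_prod_type]
    congr 1
    cases p.bodd <;> simp

lemma D_pairs (c c' : ℕ → Fin 2) (k : ℕ) :
    D (fun p : Fin (2 * k + 1) => ((p.1 + 1) / 2, c p)) (fun q => ((q.1 + 1) / 2, c' q))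
      = (if c 0 = c' 0 then 1 else 0) * ∏ s ∈ range k,
        ((JJ (c (2 * s + 1)) (c (2 * s + 2)) : ℝ) * JJ (c' (2 * s + 1)) (c' (2 * s + 2))) := by
  induction k with
  | zero => simp [D]
  | succ k ih =>
    rw [prod_range_succ, ← mul_assoc, ← ih]
    change D (fun p : Fin (2 * k + 1 + 2) => ((p.1 + 1) / 2, c p))
      (fun q => ((q.1 + 1) / 2, c' q)) = _
    rw [← D_equiv _ _ finSumFinEquiv, D_sum]
    · congr 1
      unfold D
      rw [Matrix.det_fin_two]
      have e1 : (2 * k + 1 + 1) / 2 = k + 1 := by omega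
      have e2 : (2 * k + 1 + 1 + 1) / 2 = k + 1 := by omega
      simp only [Matrix.of_apply, comp_apply, finSumFinEquiv_apply_right, Fin.val_natAdd,
        Fin.val_zero, Fin.val_one, add_zero, e1, e2, Prod.mk.injEq, true_and]
      generalize c (2 * k + 1) = a
      generalize c (2 * k + 1 + 1) = b
      generalize c' (2 * k + 1) = a'
      generalize c' (2 * k + 1 + 1) = b'
      fin_cases a <;> fin_cases b <;> fin_cases a' <;> fin_cases b' <;> simp [JJ]
    · intro p q e
      simp at e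
      omega

/-- Row labels along the rim. -/
def rimL (k : ℕ) (p : Fin (2 * k + 1)) : ℕ := k - (p.1 + 1) / 2

/-- Column labels along the rim. -/
def rimL' (k : ℕ) (p : Fin (2 * k + 1)) : ℕ := p.1 / 2

lemma prod_edge (c : ℕ → Fin 2 × Fin 2) (k : ℕ) :
    ∏ p ∈ range (2 * k), edge p (c p) (c (p + 1)) = ∏ s ∈ range k,
      ((JJ (c (2 * s + 1)).1 (c (2 * s + 2)).1 : ℝ) * JJ (c (2 * s + 1)).2 (c (2 * s)).2) := by
  induction k with
  | zero => simp
  | succ k ih =>
    rw [show 2 * (k + 1) = 2 * k + 1 + 1 by ring, prod_range_succ, prod_range_succ, ih,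
      prod_range_succ, mul_assoc]
    simp [edge, mul_comm]

lemma K_rim (k : ℕ) (cc : Fin (2 * k + 1) → Fin 2 × Fin 2) :
    K (k + 1) (rimL k) (fun p => (cc p).1) (rimL' k) (fun p => (cc p).2)
      = sg (Fin.revPerm : Perm (Fin (2 * k + 1))) * ((if (ext cc 0).1 = 0 then 1 else 0) *
        (∏ p ∈ range (2 * k), edge p (ext cc p) (ext cc (p + 1))) *
        (if (ext cc (2 * k)).2 = 0 then 1 else 0)) := by
  have h1 : (∀ p, rimL k p + ((cc p).1 : ℕ) < k + 1) ↔ (ext cc 0).1 = 0 := by
    constructor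
    · intro h
      have := h 0
      rw [← ext_val cc] at this
      simp only [rimL, Fin.val_zero] at this
      ext; omega
    · intro h p
      have h2 := (cc p).1.2
      by_cases hp : p.1 = 0
      · rw [← hp, ext_val] at h
        simp [rimL, h]
      · have := p.2
        simp only [rimL]; omega
  have h2 := D_comp_right (fun p => (rimL k p, ((cc p).1 : ℕ)))
    (fun q => (rimL' k q, ((cc q).2 : ℕ))) (Fin.revPerm : Perm (Fin (2 * k + 1)))
  have h3 : D (fun p => (rimL k p, ((cc p).1 : ℕ)))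
      ((fun q => (rimL' k q, ((cc q).2 : ℕ))) ∘ (Fin.revPerm : Perm (Fin (2 * k + 1))))
      = D (fun p : Fin (2 * k + 1) => ((p.1 + 1) / 2, (ext cc p).1))
        (fun q => ((q.1 + 1) / 2, (ext cc (2 * k - q)).2)) := by
    refine D_congr fun p q => ?_
    have hp := p.2
    have hq := q.2
    have e : (2 * k - q.1) = (Fin.rev q).1 := by rw [Fin.val_rev]; omega
    rw [e, ext_val, ext_val]
    simp only [comp_apply, Fin.revPerm_apply, rimL, rimL', Prod.mk.injEq, Fin.val_inj,
      Fin.val_rev]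
    exact and_congr_left fun _ => by omega
  rw [h3, D_pairs (fun p => (ext cc p).1) (fun q => (ext cc (2 * k - q)).2), prod_mul_distrib,
    ← prod_range_reflect (fun s => (JJ (ext cc (2 * k - (2 * s + 1))).2
      (ext cc (2 * k - (2 * s + 2))).2 : ℝ))] at h2
  have h4 : ∏ s ∈ range k, (JJ (ext cc (2 * k - (2 * (k - 1 - s) + 1))).2
      (ext cc (2 * k - (2 * (k - 1 - s) + 2))).2 : ℝ)
      = ∏ s ∈ range k, (JJ (ext cc (2 * s + 1)).2 (ext cc (2 * s)).2 : ℝ) :=
    prod_congr rfl (fun s hs => by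
      have := mem_range.1 hs
      rw [show 2 * k - (2 * (k - 1 - s) + 1) = 2 * s + 1 by omega,
        show 2 * k - (2 * (k - 1 - s) + 2) = 2 * s by omega])
  rw [h4, ← prod_mul_distrib] at h2
  unfold K
  rw [prod_edge]
  simp only [h1]
  split_ifs with a1 a2
  · rw [one_mul, mul_one, ← one_mul (D _ _), ← sg_sq Fin.revPerm, mul_assoc, ← h2]
    simp [a1, a2]
  · rw [← one_mul (D _ _), ← sg_sq Fin.revPerm, mul_assoc, ← h2]
    have : ¬ (0 = (ext cc (2 * k)).2) := fun e => a2 e.symm
    simp [a1, this]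
  · simp
  · simp

/-- The sign function on words in four letters. -/
def tau {n : ℕ} (u : Fin n → Fin 4) : ℝ :=
  ((∏ j, ∏ i ∈ Iio j, eta (u i) (u j) : ℤ) : ℝ) *
    th (fun a => (univ.filter (fun i => u i = a)).card.bodd) 1

lemma tau_eq {n : ℕ} (u : Fin n → Fin 4) : tau u = sq2 (ext u) n 1 := by
  rw [sq2_eq]
  unfold tau
  have e1 : (fun a => (univ.filter (fun i => u i = a)).card.bodd) = prt (ext u) n := by
    funext a
    unfold prt
    congr 1
    rw [card_filter, card_filter, ← Fin.sum_univ_eq_sum_range (fun i => if ext u i = a then 1 else 0)]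
    simp [ext_val]
  have e2 : ∏ j, ∏ i ∈ Iio j, eta (u i) (u j)
      = ∏ j ∈ range n, ∏ i ∈ range j, eta (ext u i) (ext u j) := by
    rw [← Fin.prod_univ_eq_prod_range (fun j => ∏ i ∈ range j, eta (ext u i) (ext u j))]
    refine prod_congr rfl fun j _ => ?_
    rw [← Nat.Iio_eq_range, ← Fin.map_valEmbedding_Iio, prod_map]
    simp [ext_val]
  rw [e1, e2]; push_cast; rfl

lemma sum_K_rim (k : ℕ) (u : Fin (2 * k + 1) → Fin 4) :
    ∑ cc : Fin (2 * k + 1) → Fin 2 × Fin 2, (∏ p, (NN (u p) (cc p).1 (cc p).2 : ℝ)) *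
      K (k + 1) (rimL k) (fun p => (cc p).1) (rimL' k) (fun p => (cc p).2)
      = - sg (Fin.revPerm : Perm (Fin (2 * k + 1))) * tau u := by
  have := transfer (fun x : Fin 2 × Fin 2 => if x.1 = 0 then (1 : ℝ) else 0)
      (fun p x => (NN (ext u p) x.1 x.2 : ℝ)) edge (2 * k)
      (fun x : Fin 2 × Fin 2 => if x.2 = 0 then (1 : ℝ) else 0)
  have h2 : tau u = - ∑ y, trv (fun x : Fin 2 × Fin 2 => if x.1 = 0 then (1 : ℝ) else 0)
      (fun p x => (NN (ext u p) x.1 x.2 : ℝ)) edge (2 * k) y * (if y.2 = 0 then 1 else 0) := by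
    rw [tau_eq]
    simp [trv_eq, sq2, stp, Fintype.sum_prod_type, JJ]
  rw [h2, ← this, neg_mul_neg, mul_sum]
  refine sum_congr rfl fun cc _ => ?_
  rw [K_rim, ← Fin.prod_univ_eq_prod_range
    (fun p => (NN (ext u p) (ext cc p).1 (ext cc p).2 : ℝ))]
  simp only [ext_val]; ring

lemma tau_ne {k : ℕ} (u : Fin (2 * k + 1) → Fin 4) : tau u ≠ 0 := by
  rw [tau_eq, sq2_eq]
  have := th_ne (prt (ext u) (2 * k + 1)) (by rw [par_prt]; simp)
  exact_mod_cast mul_ne_zero
    (prod_ne_zero_iff.2 fun j _ => prod_ne_zero_iff.2 fun i _ => eta_ne _ _) this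

lemma tau_comp {n : ℕ} {r : Fin n → Fin 4} {c : Fin n → ℕ} (hc : Monotone c)
    (hr : ∀ p q, r p = r q → c p = c q → p = q) {σ : Perm (Fin n)} (hσ : c ∘ σ = c) :
    tau (r ∘ σ) = sg σ * tau r := by
  have hσ' : ∀ p, c (σ p) = c p := congrFun hσ
  set f : Fin n → Fin n → ℤ := fun i j => if i = j then 0 else
    if c i ≤ c j then eta (r i) (r j) else - eta (r j) (r i) with hf
  have h1 : ∀ i j, f i j = - f j i := by
    intro i j
    simp only [hf]
    by_cases h : i = j
    · simp [h]
    · have h' : ¬ j = i := fun e => h e.symm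
      rw [if_neg h, if_neg h']
      rcases lt_trichotomy (c i) (c j) with a | a | a
      · simp [a.le, not_le.2 a]
      · simp only [a, le_refl, if_true]
        exact eta_anti _ _ fun e => h (hr i j e a)
      · simp [a.le, not_le.2 a]
  have h2 := σ.prod_Iio_comp_eq_sign_mul_prod h1
  have h3 : ∀ τ : Perm (Fin n), (∀ p, c (τ p) = c p) → ∏ j, ∏ i ∈ Iio j, f (τ i) (τ j)
      = ∏ j, ∏ i ∈ Iio j, eta (r (τ i)) (r (τ j)) := by
    intro τ hτ
    refine prod_congr rfl fun j _ => prod_congr rfl fun i hi => ?_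
    have hij : i < j := mem_Iio.1 hi
    simp [hf, hij.ne, hτ, hc hij.le]
  have h4 := h3 1 (fun _ => rfl)
  simp only [Perm.coe_one, id_eq] at h4
  rw [h3 σ hσ', h4] at h2
  unfold tau
  have h5 : ∀ a, (univ.filter (fun i => r (σ i) = a)).card
      = (univ.filter (fun i => r i = a)).card := fun a =>
    card_equiv σ (by simp)
  simp only [comp_apply, h5, h2, sg]
  push_cast; ring

end Vale.Agent.P197
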