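import Mathlib

namespace Vale.Agent.P197

/-- A Young tableau of shape `μ` with entries `Fin n`: a bijection from entries to cells. -/
abbrev Tableau (n : ℕ) (μ : YoungDiagram) : Type := Fin n ≃ {x : ℕ × ℕ // x ∈ μ.cells}

/-- The row of each entry of a tableau. -/
def rowOf {n : ℕ} {μ : YoungDiagram} (t : Tableau n μ) (p : Fin n) : ℕ := (t p).1.1

/-- The column of each entry of a tableau. -/
def columnOf {n : ℕ} {μ : YoungDiagram} (t : Tableau n μ) (p : Fin n) : ℕ := (t p).1.2

/-- A tabloid of shape `μ`: a tableau up to row equivalence, recorded by the row of each entry. -/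
abbrev Tabloid (n : ℕ) (μ : YoungDiagram) : Type :=
  {w : Fin n → ℕ // ∃ t : Tableau n μ, w = rowOf t}

/-- The tabloid of a tableau. -/
def tabloid {n : ℕ} {μ : YoungDiagram} (t : Tableau n μ) : Tabloid n μ := ⟨rowOf t, t, rfl⟩

/-- The tabloid `g⁻¹ · w`. -/
def relabel {n : ℕ} {μ : YoungDiagram} (g : Equiv.Perm (Fin n)) (w : Tabloid n μ) :
    Tabloid n μ :=
  ⟨w.1 ∘ g, by obtain ⟨t, ht⟩ := w.2; exact ⟨g.trans t, by rw [ht]; rfl⟩⟩

/-- The Young permutation module `M^μ`: functions on tabloids, `(g f)(w) = f(g⁻¹ · w)`. -/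
def permRep (n : ℕ) (μ : YoungDiagram) :
    Representation ℂ (Equiv.Perm (Fin n)) (Tabloid n μ → ℂ) where
  toFun g := LinearMap.funLeft ℂ ℂ (relabel g)
  map_one' := rfl
  map_mul' _ _ := rfl

/-- The column group of a tableau. -/
def columnGroup {n : ℕ} {μ : YoungDiagram} (t : Tableau n μ) : Finset (Equiv.Perm (Fin n)) :=
  Finset.univ.filter fun σ => ∀ p, columnOf t (σ p) = columnOf t p

/-- The polytabloid `e_t = ∑_{σ ∈ C_t} sgn(σ) σ · {t}`. -/
noncomputable def polytabloid {n : ℕ} {μ : YoungDiagram} (t : Tableau n μ) : Tabloid n μ → ℂ :=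
  ∑ σ ∈ columnGroup t,
    ((Equiv.Perm.sign σ : ℤ) : ℂ) • permRep n μ σ (Pi.single (tabloid t) (1 : ℂ))

theorem permRep_polytabloid {n : ℕ} {μ : YoungDiagram} (g : Equiv.Perm (Fin n))
    (t : Tableau n μ) : permRep n μ g (polytabloid t) = polytabloid (g.symm.trans t) := by
  unfold polytabloid
  rw [map_sum]
  refine Finset.sum_equiv (MulAut.conj g).toEquiv (fun σ => ?_) (fun σ _ => ?_)
  · unfold columnGroup
    rw [Finset.mem_filter, Finset.mem_filter]
    simp only [columnOf, Finset.mem_univ, true_and]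
    exact ⟨fun h p => by simpa using h (g.symm p), fun h p => by simpa using h (g p)⟩
  · have h : Pi.single (tabloid (g.symm.trans t)) (1 : ℂ)
        = permRep n μ g (Pi.single (tabloid t) (1 : ℂ)) := by
      funext w
      change _ = Pi.single (M := fun _ => ℂ) (tabloid t) (1 : ℂ) (relabel g w)
      simp only [Pi.single_apply, Subtype.ext_iff, relabel, tabloid, funext_iff, rowOf]
      exact if_congr ⟨fun h p => by simpa using h (g p), fun h p => by simpa using h (g.symm p)⟩
        rfl rfl
    have hs : Equiv.Perm.sign ((MulAut.conj g).toEquiv σ) = Equiv.Perm.sign σ := by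
      change Equiv.Perm.sign (g * σ * g⁻¹) = _
      rw [map_mul, map_mul, mul_right_comm, ← map_mul]
      simp
    rw [h, hs, map_smul, ← Module.End.mul_apply, ← Module.End.mul_apply, ← map_mul, ← map_mul]
    simp

/-- The Specht module `S^μ`: the span of the polytabloids in `M^μ`. -/
noncomputable def specht (n : ℕ) (μ : YoungDiagram) : Subrepresentation (permRep n μ) where
  toSubmodule := Submodule.span ℂ (Set.range (polytabloid : Tableau n μ → Tabloid n μ → ℂ))
  apply_mem_toSubmodule g v hv := by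
    refine Submodule.map_span_le _ _ _ |>.2 ?_ (Submodule.mem_map_of_mem hv)
    rintro _ ⟨t, rfl⟩
    exact Submodule.subset_span ⟨_, (permRep_polytabloid g t).symm⟩

/-- The Specht module as a bundled representation of `S_n`. -/
noncomputable def spechtRep (n : ℕ) (μ : YoungDiagram) : Rep.{0} ℂ (Equiv.Perm (Fin n)) :=
  Rep.of (specht n μ).toRepresentation

/-- `dim Hom_G(C, A ⊗ B)`, with `G` acting diagonally on the tensor product. -/
noncomputable def tensorMult {G : Type} [Monoid G] (A B C : Rep.{0} ℂ G) : ℕ :=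
  Module.finrank ℂ (Representation.IntertwiningMap C.ρ (A.ρ.tprod B.ρ))

/-- The Kronecker coefficient `g(l, μ, ν) = dim Hom_{S_n}(S^ν, S^l ⊗ S^μ)`. -/
noncomputable def kronecker (n : ℕ) (l μ ν : YoungDiagram) : ℕ :=
  tensorMult (spechtRep n l) (spechtRep n μ) (spechtRep n ν)

/-- The staircase `(m, m - 1, …, 1)`: the cells `(i, j)` with `i + j < m`. -/
def staircase (m : ℕ) : YoungDiagram where
  cells := (Finset.range m ×ˢ Finset.range m).filter fun x => x.1 + x.2 < m
  isLowerSet := by
    rintro ⟨a, b⟩ ⟨c, d⟩ ⟨h1, h2⟩ h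
    simp only [Finset.coe_filter, Finset.mem_product, Finset.mem_range, Set.mem_setOf_eq] at h ⊢
    simp only at h1 h2
    omega

end Vale.Agent.P197
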