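import Mathlib

namespace Vale.Agent.P197

open Finset Function Equiv

variable {P P' X Y : Type*} [Fintype P] [DecidableEq P] [Fintype P'] [DecidableEq P']
  [DecidableEq X] [DecidableEq Y]

/-- The sign of a permutation as a real number. -/
def sg (σ : Perm P) : ℝ := ((Perm.sign σ : ℤˣ) : ℤ)

@[simp] lemma sg_one : sg (1 : Perm P) = 1 := by simp [sg]
lemma sg_mul (σ τ : Perm P) : sg (σ * τ) = sg σ * sg τ := by simp [sg]
@[simp] lemma sg_inv (σ : Perm P) : sg σ⁻¹ = sg σ := by simp [sg]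
lemma sg_sq (σ : Perm P) : sg σ * sg σ = 1 := by
  rw [← sg_inv σ]; nth_rw 2 [sg_inv]; rw [← sg_mul]; simp
lemma sg_ne (σ : Perm P) : sg σ ≠ 0 := by
  intro h; have := sg_sq σ; rw [h] at this; simp at this
lemma sg_swap {p q : P} (h : p ≠ q) : sg (swap p q) = -1 := by simp [sg, Perm.sign_swap h]

/-- The matching determinant of two labelings. -/
noncomputable def D (a b : P → X) : ℝ :=
  Matrix.det (Matrix.of fun p q => if a p = b q then (1 : ℝ) else 0)

lemma D_eq (a b : P → X) : D a b = ∑ σ : Perm P, if a ∘ σ = b then sg σ else 0 := by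
  unfold D
  rw [Matrix.det_apply']
  refine sum_congr rfl fun σ _ => ?_
  simp only [Matrix.of_apply, prod_boole, mem_univ, forall_const]
  by_cases h : a ∘ σ = b
  · have : ∀ i, a (σ i) = b i := fun i => congrFun h i
    simp [h, this, sg]
  · have : ¬ ∀ i, a (σ i) = b i := fun h' => h (funext h')
    simp [h, this]

lemma D_congr {a b : P → X} {a' b' : P → Y} (h : ∀ p q, a p = b q ↔ a' p = b' q) :
    D a b = D a' b' := by
  unfold D; congr 1; ext p q; simp [h]

lemma D_comp_left (a b : P → X) (g : Perm P) : D (a ∘ g) b = sg g * D a b := by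
  unfold D sg
  rw [← Matrix.det_permute]; rfl

lemma D_comp_right (a b : P → X) (g : Perm P) : D a (b ∘ g) = sg g * D a b := by
  unfold D sg
  rw [← Matrix.det_permute']; rfl

lemma D_equiv (a b : P → X) (e : P' ≃ P) : D (a ∘ e) (b ∘ e) = D a b := by
  unfold D
  rw [← Matrix.det_submatrix_equiv_self e]; rfl

lemma D_symm (a b : P → X) : D a b = D b a := by
  unfold D
  rw [← Matrix.det_transpose]; congr 1; ext p q; simp [eq_comm]

lemma D_self {a : P → X} (h : Injective a) : D a a = 1 := by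
  unfold D
  convert Matrix.det_one (n := P) (R := ℝ)
  ext p q
  simp [Matrix.one_apply, h.eq_iff]

lemma D_perm {a b : P → X} (h : D a b ≠ 0) : ∃ σ : Perm P, a ∘ σ = b := by
  by_contra h'
  push Not at h'
  exact h (by rw [D_eq]; exact sum_eq_zero fun σ _ => by simp [h' σ])

lemma D_inj {a b : P → X} (h : D a b ≠ 0) : Injective a := by
  intro p q hpq
  by_contra hne
  exact h (Matrix.det_zero_of_row_eq hne (by ext j; simp [hpq]))

lemma D_inj' {a b : P → X} (h : D a b ≠ 0) : Injective b := D_inj (by rwa [D_symm] at h)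

lemma D_mul {a b t : P → X} (ht : Injective t) (ha : ∀ p, ∃ q, a p = t q) :
    D a t * D b t = D a b := by
  rw [D_symm b t]
  unfold D
  rw [← Matrix.det_mul]
  congr 1
  ext p q
  obtain ⟨x, hx⟩ := ha p
  simp only [Matrix.mul_apply, Matrix.of_apply]
  rw [sum_eq_single x]
  · simp [hx]
  · intro y _ hy
    have : a p ≠ t y := by rw [hx]; exact fun e => hy (ht e).symm
    simp [this]
  · simp

lemma D_sum {a b : P ⊕ P' → X} (h : ∀ p q, a (Sum.inr p) ≠ b (Sum.inl q)) :
    D a b = D (a ∘ Sum.inl) (b ∘ Sum.inl) * D (a ∘ Sum.inr) (b ∘ Sum.inr) := by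
  unfold D
  rw [← Matrix.det_fromBlocks_zero₂₁ _
    (Matrix.of fun p q => if a (Sum.inl p) = b (Sum.inr q) then (1 : ℝ) else 0)]
  congr 1
  ext p q
  rcases p with p | p <;> rcases q with q | q <;> simp [h]

lemma sum_updateRow (A T : Matrix P P ℝ) :
    ∑ p, (A.updateRow p ((A * T) p)).det = T.trace * A.det := by
  simp_rw [← Matrix.cramer_transpose_apply, Matrix.cramer_eq_adjugate_mulVec,
    ← Matrix.adjugate_transpose]
  have : ∑ p, (A.adjugate.transpose.mulVec ((A * T) p)) p = (A * T * A.adjugate).trace := by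
    simp only [Matrix.trace, Matrix.diag, Matrix.mulVec, dotProduct, Matrix.transpose_apply]
    refine sum_congr rfl fun p _ => ?_
    rw [Matrix.mul_apply]
    exact sum_congr rfl fun q _ => mul_comm _ _
  rw [this, Matrix.mul_assoc, Matrix.trace_mul_comm, Matrix.mul_assoc, Matrix.adjugate_mul]
  simp [mul_comm]

lemma sub_of_sum {A B : Finset X} (ψ : X → ℤ) (hB : ∀ x ∈ B, ψ x < 0)
    (hA : ∀ x ∈ A, x ∉ B → 0 < ψ x) (h : ∑ x ∈ A, ψ x ≤ ∑ x ∈ B, ψ x) : A ⊆ B := by
  rw [← sum_inter_add_sum_sdiff A B, ← sum_inter_add_sum_sdiff B A, inter_comm B A] at h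
  have h1 : ∑ x ∈ B \ A, ψ x ≤ 0 := sum_nonpos fun x hx => (hB x (mem_sdiff.1 hx).1).le
  intro x hx
  by_contra hxB
  have : 0 < ∑ x ∈ A \ B, ψ x :=
    sum_pos (fun y hy => hA y (mem_sdiff.1 hy).1 (mem_sdiff.1 hy).2) ⟨x, by simp [hx, hxB]⟩
  linarith

lemma perm_of_image {a b : P → X} (hb : Injective b) (h : ∀ q, ∃ p, a p = b q) :
    ∃ σ : Perm P, a ∘ σ = b := by
  choose s hs using h
  have : Injective s := fun x y e => hb (by rw [← hs, ← hs, e])
  exact ⟨Equiv.ofBijective s (Finite.injective_iff_bijective.1 this), funext hs⟩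

lemma sum_perm_sum (F : Perm (P ⊕ P') → ℝ)
    (h : ∀ g, F g ≠ 0 → ∀ p, ∃ q, g (Sum.inr p) = Sum.inr q) :
    ∑ g, F g = ∑ g₁ : Perm P, ∑ g₂ : Perm P', F (Equiv.sumCongr g₁ g₂) := by
  rw [← sum_product']
  symm
  refine sum_of_injOn (fun x : Perm P × Perm P' => Equiv.sumCongr x.1 x.2) ?_ (by simp) ?_
    (by simp)
  · intro x _ y _ e
    exact Perm.sumCongrHom_injective e
  · intro g _ hg
    by_contra hF
    apply hg
    have h1 : Set.MapsTo g (Set.range Sum.inr) (Set.range Sum.inr) := by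
      rintro _ ⟨p, rfl⟩
      obtain ⟨q, hq⟩ := h g hF p
      exact ⟨q, hq.symm⟩
    obtain ⟨x, hx⟩ := Perm.mem_sumCongrHom_range_of_perm_mapsTo_inl
      ((Perm.perm_mapsTo_inl_iff_mapsTo_inr g).2 h1)
    exact ⟨x, by simp, hx⟩

end Vale.Agent.P197
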