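import Vale.Agent.P197.Main
import Vale.Agent.P197.Defs

namespace Vale.Agent.P197

open Finset Function Equiv TensorProduct

variable {n : ℕ}

lemma polytabloid_apply {μ : YoungDiagram} (t : Tableau n μ) (w : Tabloid n μ) :
    polytabloid t w = (polyt (rowOf t) (columnOf t) w.1 : ℝ) := by
  rw [polyt_eq]
  unfold polytabloid columnGroup
  rw [Finset.sum_apply, sum_filter]
  push_cast
  refine sum_congr rfl fun σ _ => ?_
  have h1 : (∀ p, columnOf t (σ p) = columnOf t p) ↔ columnOf t ∘ σ = columnOf t :=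
    (funext_iff (f := columnOf t ∘ σ)).symm
  have h2 : relabel σ w = tabloid t ↔ w.1 ∘ σ = rowOf t := Subtype.ext_iff
  have h3 : permRep n μ σ (Pi.single (tabloid t) (1 : ℂ)) w
      = if w.1 ∘ σ = rowOf t then 1 else 0 := by
    change Pi.single (M := fun _ => ℂ) (tabloid t) (1 : ℂ) (relabel σ w) = _
    simp only [Pi.single_apply, h2]
  simp only [h1]
  by_cases a : columnOf t ∘ σ = columnOf t <;> by_cases b : w.1 ∘ σ = rowOf t <;>
    simp [a, b, h3, sg]

lemma mem_staircase {m : ℕ} {x : ℕ × ℕ} : x ∈ (staircase m).cells ↔ x.1 + x.2 < m := mem_cells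

lemma isRef_tableau {m : ℕ} (t : Tableau n (staircase m)) : IsRef m (fun p => (t p).1) := by
  refine ⟨fun p q h => t.injective (Subtype.ext h), fun x => ⟨fun h => ?_, ?_⟩⟩
  · exact ⟨t.symm ⟨x, mem_staircase.2 h⟩, by simp⟩
  · rintro ⟨q, rfl⟩; exact mem_staircase.1 (t q).2

lemma eps_tableau {m : ℕ} (t : Tableau n (staircase m)) {L c : Fin n → ℕ}
    (h : eps (fun p => (t p).1) L c ≠ 0) :
    ∃ σ : Perm (Fin n), L = rowOf (σ.symm.trans t) ∧ c = columnOf (σ.symm.trans t) := by
  obtain ⟨σ, hσ⟩ := D_perm h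
  refine ⟨σ, funext fun p => ?_, funext fun p => ?_⟩
  · have := congrArg Prod.fst (congrFun hσ (σ.symm p)); simpa [rowOf] using this
  · have := congrArg Prod.snd (congrFun hσ (σ.symm p)); simpa [columnOf] using this

/-- The elements of the staircase Specht module attached to column labelings. -/
noncomputable def el {m : ℕ} (t : Tableau n (staircase m)) (c : Fin n → ℕ) :
    (specht n (staircase m)).toSubmodule :=
  ⟨fun L => (eps (fun p => (t p).1) L.1 c : ℝ), by
    by_cases h : ∃ L, eps (fun p => (t p).1) L c ≠ 0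
    · obtain ⟨L, hL⟩ := h
      obtain ⟨σ, -, rfl⟩ := eps_tableau t hL
      have : (fun L : Tabloid n (staircase m) =>
          ((eps (fun p => (t p).1) L.1 (columnOf (σ.symm.trans t)) : ℝ) : ℂ))
          = (sg σ : ℂ) • polytabloid (σ.symm.trans t) := by
        funext L
        rw [Pi.smul_apply, polytabloid_apply, smul_eq_mul, ← Complex.ofReal_mul]
        unfold polyt eps
        rw [← D_comp_right]
        congr 2
        funext q
        simp [rowOf, columnOf]
      rw [this]
      exact Submodule.smul_mem _ _ (Submodule.subset_span ⟨_, rfl⟩)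
    · push Not at h
      simp only [h]
      exact Submodule.zero_mem _⟩

lemma el_act {m : ℕ} (t : Tableau n (staircase m)) (c : Fin n → ℕ) (g : Perm (Fin n)) :
    (specht n (staircase m)).toRepresentation g (el t (c ∘ g)) = (sg g : ℂ) • el t c := by
  refine Subtype.ext (funext fun L => ?_)
  change ((eps (fun p => (t p).1) (L.1 ∘ g) (c ∘ g) : ℝ) : ℂ)
    = (sg g : ℂ) * ((eps (fun p => (t p).1) L.1 c : ℝ) : ℂ)
  rw [eps_comp, Complex.ofReal_mul]

lemma finrank_pos_of_ne {G V W : Type*} [Monoid G] [AddCommGroup V] [Module ℂ V] [AddCommGroup W]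
    [Module ℂ W] [Module.Finite ℂ V] [Module.Finite ℂ W] (ρ : Representation ℂ G V)
    (σ : Representation ℂ G W) (Φ : ρ.IntertwiningMap σ) (h : Φ ≠ 0) :
    0 < Module.finrank ℂ (ρ.IntertwiningMap σ) :=
  Module.finrank_pos_iff_exists_ne_zero.2 ⟨Φ, h⟩

theorem saxl (m : ℕ) (hn : 2 * n = m * (m + 1)) (ν : YoungDiagram) (hν : ν.card = n) :
    0 < kronecker n (staircase m) (staircase m) ν := by
  haveI : ∀ μ, Finite (Tabloid n μ) := fun μ =>
    Finite.of_surjective (tabloid : Tableau n μ → Tabloid n μ)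
      (fun w => by obtain ⟨t, ht⟩ := w.2; exact ⟨t, Subtype.ext ht.symm⟩)
  obtain ⟨s⟩ : Nonempty (Tableau n ν) := Fintype.card_eq.1 (by simp [hν])
  obtain ⟨t⟩ : Nonempty (Tableau n (staircase m)) := Fintype.card_eq.1 (by
    have := card_cells m
    rw [Fintype.card_fin, Fintype.card_coe]
    change n = (cells m).card
    omega)
  obtain ⟨L, c, L', c', h⟩ := faith m (Fin n) (by simpa using hn)
    (fun g => polyt (rowOf s) (columnOf s) (rowOf s ∘ g)) (by
      intro h
      have h1 := congrFun h 1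
      have h2 : polyt (rowOf s) (columnOf s) (rowOf s) = 1 :=
        polyt_self fun p q a b => s.injective (Subtype.ext (Prod.ext a b))
      exact one_ne_zero (h2.symm.trans h1))
  simp_rw [K_eps (isRef_tableau t)] at h
  obtain ⟨g, _, hg⟩ := exists_ne_zero_of_sum_ne_zero h
  obtain ⟨σ, hσ, -⟩ := eps_tableau t (left_ne_zero_of_mul (right_ne_zero_of_mul hg))
  obtain ⟨σ', hσ', -⟩ := eps_tableau t (right_ne_zero_of_mul (right_ne_zero_of_mul hg))
  let ev : ∀ μ, Tabloid n μ → (specht n μ).toSubmodule →ₗ[ℂ] ℂ := fun μ w =>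
    (LinearMap.proj w).comp (specht n μ).toSubmodule.subtype
  let φ : (specht n ν).toSubmodule →ₗ[ℂ] (specht n (staircase m)).toSubmodule ⊗[ℂ]
      (specht n (staircase m)).toSubmodule :=
    ∑ g : Perm (Fin n), (ev ν (relabel g (tabloid s))).smulRight (el t (c ∘ g) ⊗ₜ el t (c' ∘ g))
  have hφ : ∀ f, φ f = ∑ g : Perm (Fin n),
      f.1 (relabel g (tabloid s)) • (el t (c ∘ g) ⊗ₜ[ℂ] el t (c' ∘ g)) := fun f => by
    simp only [φ, LinearMap.sum_apply]; rfl
  let Φ : Representation.IntertwiningMap (specht n ν).toRepresentation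
      ((specht n (staircase m)).toRepresentation.tprod
        (specht n (staircase m)).toRepresentation) :=
    φ.intertwiningMap_of_isIntertwiningMap _ _ (fun k f => by
      rw [hφ, hφ, map_sum]
      conv_rhs => rw [← Equiv.sum_comp (Equiv.mulRight k)]
      refine sum_congr rfl fun g _ => ?_
      rw [map_smul, Representation.tprod_apply, TensorProduct.map_tmul]
      have e1 := el_act t (c ∘ g) k
      have e2 := el_act t (c' ∘ g) k
      change _ = _ • ((specht n (staircase m)).toRepresentation k (el t ((c ∘ g) ∘ k)) ⊗ₜ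
        (specht n (staircase m)).toRepresentation k (el t ((c' ∘ g) ∘ k)))
      rw [e1, e2, smul_tmul_smul, ← Complex.ofReal_mul, sg_sq, Complex.ofReal_one, one_smul]
      rfl)
  have hne : Φ ≠ 0 := by
    intro h0
    have h1 : φ ⟨polytabloid s, Submodule.subset_span ⟨s, rfl⟩⟩ = 0 :=
      DFunLike.congr_fun h0 _
    have h2 := congrArg ((TensorProduct.lid ℂ ℂ).toLinearMap.comp
      (TensorProduct.map (ev _ ⟨L, _, hσ⟩) (ev _ ⟨L', _, hσ'⟩))) h1
    rw [hφ, map_sum, map_zero] at h2
    apply h
    rw [← Complex.ofReal_eq_zero, ← h2, Complex.ofReal_sum]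
    refine sum_congr rfl fun k _ => ?_
    rw [map_smul]
    change _ = polytabloid s _ • _
    rw [polytabloid_apply]
    push_cast
    rfl
  exact finrank_pos_of_ne (V := (specht n ν).toSubmodule)
    (W := (specht n (staircase m)).toSubmodule ⊗[ℂ] (specht n (staircase m)).toSubmodule)
    (specht n ν).toRepresentation ((specht n (staircase m)).toRepresentation.tprod
        (specht n (staircase m)).toRepresentation) Φ hne

end Vale.Agent.P197
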