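import Vale.Agent.P197.Det

namespace Vale.Agent.P197

open Finset Function Equiv

variable {P P' α : Type*} [Fintype P] [DecidableEq P] [Fintype P'] [DecidableEq P']

/-- Matrix coefficients of the tensor square of the staircase Specht module. -/
noncomputable def K (m : ℕ) (L c L' c' : P → ℕ) : ℝ :=
  if ∀ p, L p + c p < m then D (fun p => (L p, c p)) (fun q => (L' q, c' q)) else 0

lemma K_equiv (m : ℕ) (L c L' c' : P → ℕ) (e : P' ≃ P) :
    K m (L ∘ e) (c ∘ e) (L' ∘ e) (c' ∘ e) = K m L c L' c' := by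
  unfold K
  have : (∀ p, (L ∘ e) p + (c ∘ e) p < m) ↔ ∀ p, L p + c p < m :=
    ⟨fun h p => by simpa using h (e.symm p), fun h p => h _⟩
  rw [← D_equiv (fun p => (L p, c p)) _ e]
  simp only [this]; rfl

lemma K_shift (m : ℕ) (L c L' c' : P → ℕ) (g : Perm P) :
    K m L (c ∘ g) L' (c' ∘ g) = K m (L ∘ ⇑g⁻¹) c (L' ∘ ⇑g⁻¹) c' := by
  rw [← K_equiv m (L ∘ ⇑g⁻¹) c (L' ∘ ⇑g⁻¹) c' g]
  congr 1 <;> funext p <;> simp

lemma K_ne {m : ℕ} {L c L' c' : P → ℕ} (h : K m L c L' c' ≠ 0) :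
    (∀ p, L p + c p < m) ∧ (∀ p, L' p + c' p < m) ∧ Injective (fun p => (L p, c p)) ∧
      Injective (fun p => (L' p, c' p)) := by
  unfold K at h
  split_ifs at h with h1
  · obtain ⟨σ, hσ⟩ := D_perm h
    refine ⟨h1, fun p => ?_, D_inj h, D_inj' h⟩
    have := congrFun hσ p
    simp only [comp_apply, Prod.mk.injEq] at this
    rw [← this.1, ← this.2]; exact h1 _
  · exact absurd rfl h

lemma K_sum {m s : ℕ} (L L' : P ⊕ P' → ℕ) {c₁ c₁' : P → ℕ} (c₂ c₂' : P' → ℕ)
    (h' : ∀ p, c₁' p < s) :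
    K (m + s) L (Sum.elim c₁ (fun p => c₂ p + s)) L' (Sum.elim c₁' (fun p => c₂' p + s))
      = K (m + s) (L ∘ Sum.inl) c₁ (L' ∘ Sum.inl) c₁'
        * K m (L ∘ Sum.inr) c₂ (L' ∘ Sum.inr) c₂' := by
  unfold K
  have : (∀ p, L p + Sum.elim c₁ (fun p => c₂ p + s) p < m + s) ↔
      (∀ p, (L ∘ Sum.inl) p + c₁ p < m + s) ∧ ∀ p, (L ∘ Sum.inr) p + c₂ p < m := by
    simp [Sum.forall, ← add_assoc]
  simp only [this]
  by_cases h1 : ∀ p, (L ∘ Sum.inl) p + c₁ p < m + s
  · by_cases h2 : ∀ p, (L ∘ Sum.inr) p + c₂ p < m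
    · rw [if_pos ⟨h1, h2⟩, if_pos h1, if_pos h2, D_sum]
      · congr 1
        exact D_congr fun p q => by simp
      · intro p q e
        have := h' q
        simp at e
        omega
    · rw [if_neg (fun h => h2 h.2), if_neg h2, mul_zero]
  · rw [if_neg (fun h => h1 h.1), if_neg h1, zero_mul]

/-- The cells of the staircase. -/
def cells (m : ℕ) : Finset (ℕ × ℕ) := (range m ×ˢ range m).filter (fun x => x.1 + x.2 < m)

lemma mem_cells {m : ℕ} {x : ℕ × ℕ} : x ∈ cells m ↔ x.1 + x.2 < m := by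
  simp only [cells, mem_filter, mem_product, mem_range]; omega

lemma card_cells (m : ℕ) : 2 * (cells m).card = m * (m + 1) := by
  induction m with
  | zero => simp [cells]
  | succ m ih =>
    have : cells (m + 1) = cells m ∪ antidiagonal m := by
      ext x; simp only [mem_cells, mem_union, HasAntidiagonal.mem_antidiagonal]; omega
    rw [this, card_union_of_disjoint, Nat.card_antidiagonal]
    · nlinarith
    · rw [disjoint_left]; intro x; simp only [mem_cells, HasAntidiagonal.mem_antidiagonal]; omega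

lemma image_cells {m : ℕ} (hP : 2 * Fintype.card P = m * (m + 1)) {a : P → ℕ × ℕ}
    (hi : Injective a) (ha : ∀ p, (a p).1 + (a p).2 < m) : univ.image a = cells m := by
  refine eq_of_subset_of_card_le (fun x hx => ?_) ?_
  · obtain ⟨p, _, rfl⟩ := mem_image.1 hx
    exact mem_cells.2 (ha p)
  · rw [card_image_of_injective _ hi, card_univ]
    have := card_cells m
    omega

lemma sum_cells {m : ℕ} (hP : 2 * Fintype.card P = m * (m + 1)) {a b : P → ℕ}
    (hi : Injective fun p => (a p, b p)) (ha : ∀ p, a p + b p < m) :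
    ∑ p, a p = ∑ x ∈ cells m, x.1 := by
  rw [← image_cells hP hi ha, sum_image hi.injOn]

/-- A reference filling of the staircase. -/
structure IsRef (m : ℕ) (t : P → ℕ × ℕ) : Prop where
  inj : Injective t
  mem : ∀ x, x.1 + x.2 < m ↔ ∃ q, t q = x

lemma exists_ref {m : ℕ} (hP : 2 * Fintype.card P = m * (m + 1)) :
    ∃ t : P → ℕ × ℕ, IsRef m t := by
  have : Fintype.card P = Fintype.card (cells m) := by
    have := card_cells m
    simp only [Fintype.card_coe]; omega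
  obtain ⟨e⟩ := Fintype.card_eq.1 this
  refine ⟨fun p => (e p).1, fun p q h => e.injective (Subtype.ext h), fun x => ⟨fun h => ?_, ?_⟩⟩
  · exact ⟨e.symm ⟨x, mem_cells.2 h⟩, by simp⟩
  · rintro ⟨q, rfl⟩; exact mem_cells.1 (e q).2

/-- The signed incidence of a row labeling and a column labeling. -/
noncomputable def eps (t : P → ℕ × ℕ) (L c : P → ℕ) : ℝ := D (fun p => (L p, c p)) t

lemma eps_ne {m : ℕ} {t : P → ℕ × ℕ} (ht : IsRef m t) {L c : P → ℕ} (h : eps t L c ≠ 0) (p : P) :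
    L p + c p < m := by
  obtain ⟨σ, hσ⟩ := D_perm h
  exact (ht.mem (L p, c p)).2 ⟨σ.symm p, by rw [← hσ]; simp⟩

lemma K_eps {m : ℕ} {t : P → ℕ × ℕ} (ht : IsRef m t) (L c L' c' : P → ℕ) :
    K m L c L' c' = eps t L c * eps t L' c' := by
  unfold K
  split_ifs with h
  · refine (D_mul ht.inj fun p => ?_).symm
    obtain ⟨q, hq⟩ := (ht.mem (L p, c p)).1 (h p)
    exact ⟨q, hq.symm⟩
  · have : eps t L c = 0 := by by_contra h'; exact h (eps_ne ht h')
    rw [this, zero_mul]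

lemma eps_comp (t : P → ℕ × ℕ) (L c : P → ℕ) (g : Perm P) :
    eps t (L ∘ g) (c ∘ g) = sg g * eps t L c := D_comp_left (fun p => (L p, c p)) t g

lemma eps_symm {m : ℕ} {t : P → ℕ × ℕ} (ht : IsRef m t) :
    ∃ s : ℝ, ∀ L c : P → ℕ, eps t L c = s * eps t c L := by
  obtain ⟨θ, hθ⟩ := perm_of_image (a := t) (b := Prod.swap ∘ t)
    (Prod.swap_injective.comp ht.inj) (fun q => (ht.mem _).1 (by
      have := (ht.mem (t q)).2 ⟨q, rfl⟩
      simp only [comp_apply, Prod.fst_swap, Prod.snd_swap]; omega))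
  refine ⟨sg θ, fun L c => ?_⟩
  unfold eps
  rw [← D_comp_right, hθ]
  exact D_congr fun p q => by simp [Prod.ext_iff, and_comm]

/-- The group algebra element `x` acts nontrivially on the tensor square. -/
def Act (m : ℕ) (x : Perm P → ℝ) : Prop :=
  ∃ L c L' c' : P → ℕ, ∑ g : Perm P, x g * K m L (c ∘ g) L' (c' ∘ g) ≠ 0

/-- Precomposition of words with a permutation. -/
def pre (β : Type*) (g : Perm P) : (P → β) ≃ (P → β) where
  toFun w := w ∘ g
  invFun w := w ∘ ⇑g⁻¹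
  left_inv w := by funext p; simp
  right_inv w := by funext p; simp

lemma act_twist {m : ℕ} (hP : 2 * Fintype.card P = m * (m + 1)) {x : Perm P → ℝ}
    (hx : Act m x) : Act m (fun g => sg g * x g) := by
  obtain ⟨t, ht⟩ := exists_ref hP
  obtain ⟨s, hs⟩ := eps_symm ht
  obtain ⟨L0, c0, L', c', hne⟩ := hx
  by_contra h
  unfold Act at h
  push Not at h
  simp_rw [K_eps ht] at h hne
  set v : (P → ℕ) → ℝ := fun w => ∑ g : Perm P, x g * (eps t w (c0 ∘ g) * eps t L' (c' ∘ g))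
    with hv
  have c1 : ∀ L : P → ℕ, ∑ w : P → Fin m, eps t L (Fin.val ∘ w) * v (Fin.val ∘ w) = 0 := by
    intro L
    simp only [hv, mul_sum]
    rw [sum_comm]
    have : ∀ g : Perm P, ∑ w : P → Fin m, eps t L (Fin.val ∘ w) *
        (x g * (eps t (Fin.val ∘ w) (c0 ∘ g) * eps t L' (c' ∘ g)))
        = ∑ w : P → Fin m, eps t (Fin.val ∘ w) c0 *
          (sg g * x g * (eps t L ((Fin.val ∘ w) ∘ g) * eps t L' (c' ∘ g))) := by
      intro g
      rw [← Equiv.sum_comp (pre (Fin m) g)]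
      refine sum_congr rfl fun w _ => ?_
      have e : Fin.val ∘ (pre (Fin m) g w) = (Fin.val ∘ w) ∘ g := rfl
      rw [e, eps_comp]; ring
    simp_rw [this]
    rw [sum_comm]
    refine sum_eq_zero fun w _ => ?_
    rw [← mul_sum, h, mul_zero]
  have c2 : ∑ w : P → Fin m, v (Fin.val ∘ w) * v (Fin.val ∘ w) = 0 := by
    have : ∀ w : P → Fin m, v (Fin.val ∘ w) * v (Fin.val ∘ w) = ∑ g : Perm P,
        (s * x g * eps t L' (c' ∘ g)) * (eps t (c0 ∘ g) (Fin.val ∘ w) * v (Fin.val ∘ w)) := by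
      intro w
      nth_rw 1 [hv]
      simp only [sum_mul]
      refine sum_congr rfl fun g _ => ?_
      rw [hs (Fin.val ∘ w)]; ring
    rw [sum_congr rfl fun w _ => this w, sum_comm]
    refine sum_eq_zero fun g _ => ?_
    rw [← mul_sum, c1, mul_zero]
  have c3 := (sum_eq_zero_iff_of_nonneg (fun u _ => mul_self_nonneg _)).1 c2
  by_cases hL : ∀ p, L0 p < m
  · have := c3 (fun p => ⟨L0 p, hL p⟩) (mem_univ _)
    exact hne (mul_self_eq_zero.1 this)
  · refine hne (sum_eq_zero fun g _ => ?_)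
    have : eps t L0 (c0 ∘ g) = 0 := by
      by_contra h'
      exact hL fun p => by have := eps_ne ht h' p; omega
    simp [this]

lemma act_inv {m : ℕ} {y : Perm P → ℝ} (hy : Act m y) : Act m (fun g => y g⁻¹) := by
  obtain ⟨L0, c0, L0', c0', hne⟩ := hy
  by_contra h
  unfold Act at h
  push Not at h
  set v : (P → ℕ) → (P → ℕ) → ℝ := fun L L' => ∑ g : Perm P, y g * K m L (c0 ∘ g) L' (c0' ∘ g)
    with hv
  have c2 : ∑ w : (P → Fin m) × (P → Fin m),
      v (Fin.val ∘ w.1) (Fin.val ∘ w.2) * v (Fin.val ∘ w.1) (Fin.val ∘ w.2) = 0 := by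
    have e1 : ∀ w : (P → Fin m) × (P → Fin m),
        v (Fin.val ∘ w.1) (Fin.val ∘ w.2) * v (Fin.val ∘ w.1) (Fin.val ∘ w.2) = ∑ g : Perm P,
        y g * K m (Fin.val ∘ w.1) (c0 ∘ g) (Fin.val ∘ w.2) (c0' ∘ g)
          * v (Fin.val ∘ w.1) (Fin.val ∘ w.2) := by
      intro w
      nth_rw 1 [hv]
      simp only [sum_mul]
    rw [sum_congr rfl fun w _ => e1 w, sum_comm]
    have e2 : ∀ g : Perm P, ∑ w : (P → Fin m) × (P → Fin m),
        y g * K m (Fin.val ∘ w.1) (c0 ∘ g) (Fin.val ∘ w.2) (c0' ∘ g)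
          * v (Fin.val ∘ w.1) (Fin.val ∘ w.2) = ∑ w : (P → Fin m) × (P → Fin m),
        ∑ k : Perm P, K m (Fin.val ∘ w.1) c0 (Fin.val ∘ w.2) c0' * y k * (y g *
          K m (Fin.val ∘ w.1) ((c0 ∘ k) ∘ ⇑g⁻¹) (Fin.val ∘ w.2) ((c0' ∘ k) ∘ ⇑g⁻¹)) := by
      intro g
      rw [← Equiv.sum_comp ((pre (Fin m) g).prodCongr (pre (Fin m) g))]
      refine sum_congr rfl fun w _ => ?_
      have a1 : Fin.val ∘ ((pre (Fin m) g).prodCongr (pre (Fin m) g) w).1
        = (Fin.val ∘ w.1) ∘ g := rfl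
      have a2 : Fin.val ∘ ((pre (Fin m) g).prodCongr (pre (Fin m) g) w).2
        = (Fin.val ∘ w.2) ∘ g := rfl
      rw [a1, a2, K_equiv]
      simp only [hv, mul_sum]
      refine sum_congr rfl fun k _ => ?_
      rw [K_shift m _ (c0 ∘ k) _ (c0' ∘ k) g⁻¹, inv_inv]; ring
    rw [sum_congr rfl fun g _ => e2 g, sum_comm]
    refine sum_eq_zero fun w _ => ?_
    rw [sum_comm]
    refine sum_eq_zero fun k _ => ?_
    rw [← mul_sum, ← Equiv.sum_comp (Equiv.inv (Perm P))]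
    simp only [Equiv.inv_apply, inv_inv]
    rw [h, mul_zero]
  have c3 := (sum_eq_zero_iff_of_nonneg (fun u _ => mul_self_nonneg _)).1 c2
  obtain ⟨g, _, hg⟩ := exists_ne_zero_of_sum_ne_zero hne
  obtain ⟨b1, b2, -⟩ := K_ne (right_ne_zero_of_mul hg)
  have := c3 (fun p => ⟨L0 p, by have := b1 p; omega⟩, fun p => ⟨L0' p, by have := b2 p; omega⟩)
    (mem_univ _)
  exact hne (mul_self_eq_zero.1 this)

/-- `(L, L')` places the points in distinct cells of the staircase. -/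
def Stair (m : ℕ) (L L' : P → ℕ) : Prop :=
  Injective (fun p => (L p, L' p)) ∧ ∀ p, L p + L' p < m

/-- The function `f` on words is detected by the tensor square. -/
def Dt (m : ℕ) (b : Prop) (f : (P → α) → ℝ) : Prop :=
  ∃ (u0 : P → α) (L c L' c' : P → ℕ), (b → Stair m L L') ∧
    ∑ g : Perm P, f (u0 ∘ g) * K m L (c ∘ g) L' (c' ∘ g) ≠ 0

lemma Dt.transport {m : ℕ} {b : Prop} {f : (P → α) → ℝ} (e : P' ≃ P)
    (h : Dt m b (fun u : P' → α => f (u ∘ e.symm))) : Dt m b f := by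
  obtain ⟨u0, L, c, L', c', h1, h2⟩ := h
  refine ⟨u0 ∘ e.symm, L ∘ e.symm, c ∘ e.symm, L' ∘ e.symm, c' ∘ e.symm,
    fun hb => ⟨(h1 hb).1.comp e.symm.injective, fun p => (h1 hb).2 _⟩, ?_⟩
  rw [← Equiv.sum_comp e.permCongr]
  convert h2 using 3 with g
  · congr 1; funext p; simp
  · rw [← K_equiv m L (c ∘ g) L' (c' ∘ g) e.symm]
    congr 1 <;> funext p <;> simp

end Vale.Agent.P197
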