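import Vale.Agent.P197.StepC

namespace Vale.Agent.P197

open Finset Function Equiv

variable {P : Type*} [Fintype P] [DecidableEq P]

lemma act_shift {m : ℕ} {x : Perm P → ℝ} (k : Perm P) (h : Act m (fun g => x (k * g))) :
    Act m x := by
  obtain ⟨L, c, L', c', h⟩ := h
  refine ⟨L, c ∘ ⇑k⁻¹, L', c' ∘ ⇑k⁻¹, ?_⟩
  rw [← Equiv.sum_comp (Equiv.mulLeft k)]
  convert h using 4 with g
  · rfl
  all_goals funext p; simp

lemma partB {m d : ℕ} (hP : 2 * Fintype.card P = m * (m + 1)) {r : P → Fin d} {c : P → ℕ}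
    (ht : IsTab (fun p => (r p : ℕ)) c) (hc : ∀ p, c p < m + 1) : Dt m False (polyt r c) := by
  obtain ⟨u0, L, c₁, L', c₁', -, h⟩ := partA m P hP (range (m + 1)) (card_range _)
    (polyt c (fun p => (r p : ℕ))) c
    (by rw [polyt_self (fun p q a b => ht.inj p q b a)]; exact one_ne_zero)
    (fun p => mem_range.2 (hc p))
  obtain ⟨g, _, hg⟩ := exists_ne_zero_of_sum_ne_zero h
  obtain ⟨σ, hσ, -⟩ := polyt_perm (left_ne_zero_of_mul hg)
  have hu : u0 = c ∘ ⇑(g * σ)⁻¹ := (comp_iff u0 c (g * σ)).1 hσ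
  have h1 : Act m (fun k => polyt c (fun p => (r p : ℕ)) (c ∘ k)) :=
    act_shift (g * σ)⁻¹ ⟨L, c₁, L', c₁', by rw [hu] at h; exact h⟩
  obtain ⟨L, c₁, L', c₁', h2⟩ := act_inv (act_twist hP h1)
  refine ⟨r, L, c₁, L', c₁', False.elim, ?_⟩
  convert h2 using 3 with k
  unfold polyt
  simp only
  rw [sg_inv, ← D_comp_left]
  exact D_congr fun p q => by simp [Fin.val_inj, and_comm]

universe u

/-- The tensor square of the staircase Specht module is a faithful module. -/
theorem faith (m : ℕ) : ∀ (P : Type u) [Fintype P] [DecidableEq P],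
    2 * Fintype.card P = m * (m + 1) → ∀ x : Perm P → ℝ, x ≠ 0 → Act m x := by
  induction m with
  | zero =>
    intro P _ _ hP x hx
    haveI : IsEmpty P := Fintype.card_eq_zero_iff.1 (by omega)
    obtain ⟨g, hg⟩ := Function.ne_iff.1 hx
    refine ⟨0, 0, 0, 0, ?_⟩
    rw [Fintype.sum_subsingleton _ g]
    simpa [K, D] using hg
  | succ m ih =>
    intro P _ _ hP x hx
    set e := Fintype.equivFin P
    set f : (P → Fin (Fintype.card P)) → ℝ := fun u => ∑ g : Perm P, if u = e ∘ g then x g else 0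
      with hf
    have hfe : ∀ g : Perm P, f (e ∘ g) = x g := by
      intro g
      simp only [hf]
      rw [sum_eq_single g, if_pos rfl]
      · intro k _ hk
        exact if_neg fun h => hk (Equiv.ext fun p => e.injective (congrFun h p).symm)
      · simp
    have hf0 : f ≠ 0 := fun h => hx (funext fun g => by rw [← hfe, h]; rfl)
    have := sep {Φ | ∃ L c L' c' : P → ℕ,
      Φ = fun g : Perm P => K (m + 1) L (c ∘ g) L' (c' ∘ g)} ?_ ?_ hf0
    · obtain ⟨u0, Φ, ⟨L, c, L', c', rfl⟩, h⟩ := this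
      obtain ⟨g, _, hg⟩ := exists_ne_zero_of_sum_ne_zero h
      obtain ⟨k, _, hk⟩ := exists_ne_zero_of_sum_ne_zero (left_ne_zero_of_mul hg)
      have h1 : u0 ∘ g = e ∘ k := by by_contra h'; exact hk (if_neg h')
      rw [comp_iff] at h1
      refine act_shift (k * g⁻¹) ⟨L, c, L', c', ?_⟩
      convert h using 3 with g'
      simp only
      rw [← hfe, h1]; rfl
    · rintro Φ ⟨L, c, L', c', rfl⟩ k
      exact ⟨L ∘ ⇑k⁻¹, c, L' ∘ ⇑k⁻¹, c', funext fun g => K_shift _ L (c ∘ g) L' (c' ∘ g) k⟩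
    intro r c ht
    suffices h : Dt (m + 1) False (polyt r c) by
      obtain ⟨u0, L, c₁, L', c₁', -, h⟩ := h
      exact ⟨u0, _, ⟨L, c₁, L', c₁', rfl⟩, h⟩
    by_cases hc : ∀ p, c p < m + 1 + 1
    · exact partB hP ht hc
    push Not at hc
    obtain ⟨p0, hp0⟩ := hc
    have h1 : range (m + 1) ⊆ (univ.filter (fun p => r p = r p0)).image c := by
      intro j hj
      obtain ⟨q, a, b⟩ := ht.down p0 (r p0) j le_rfl (by have := mem_range.1 hj; omega)
      exact mem_image.2 ⟨q, by simp [Fin.ext a], b⟩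
    obtain ⟨Y, hY, hYc⟩ := exists_subset_card_eq (s := univ.filter (fun p => r p = r p0))
      (n := m + 1) (by simpa using (card_le_card h1).trans card_image_le)
    have hB : 2 * Fintype.card {p // ¬ p ∈ Y} = m * (m + 1) := by
      rw [Fintype.card_subtype_compl, Fintype.card_coe, hYc]
      have : 2 * Fintype.card P = m * (m + 1) + 2 * (m + 1) := by rw [hP]; ring
      omega
    set ε : Fin (m + 1) ⊕ {p // ¬ p ∈ Y} ≃ P :=
      (Equiv.sumCongr (Y.equivFinOfCardEq hYc).symm (Equiv.refl _)).trans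
        (Equiv.sumCompl (fun p => p ∈ Y)) with hε
    refine Dt.transport ε (stepC (r p0) ?_)
    obtain ⟨L, c₁, L', c₁', h⟩ := ih _ hB (fun g : Perm {p // ¬ p ∈ Y} => polyt r c
      (Sum.elim (fun _ => r p0) ((fun p : {p // ¬ p ∈ Y} => r p) ∘ g) ∘ ε.symm)) (by
        intro h
        have h2 := congrFun h 1
        have h3 : Sum.elim (fun _ => r p0) ((fun p : {p // ¬ p ∈ Y} => r p) ∘
            (1 : Perm {p // ¬ p ∈ Y})) ∘ ε.symm = r := by
          funext p
          obtain ⟨q, rfl⟩ := ε.surjective p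
          rw [comp_apply, ε.symm_apply_apply]
          rcases q with q | q
          · exact ((mem_filter.1 (hY ((Y.equivFinOfCardEq hYc).symm q).2)).2).symm
          · rfl
        simp only [h3, polyt_self (fun p q a => ht.inj p q (congrArg Fin.val a))] at h2
        exact one_ne_zero h2)
    exact ⟨_, L, c₁, L', c₁', False.elim, h⟩

end Vale.Agent.P197
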