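import Mathlib

namespace Vale.Agent.P197

open Finset Function

variable {P α : Type*} [Fintype P] [DecidableEq P] [DecidableEq α]

/-- Move one point of `S` from class `a` to class `b`. -/
def mv (S : Finset P) (a b : α) (f : (P → α) → ℝ) : (P → α) → ℝ :=
  fun w => ∑ p ∈ S, if w p = b then f (update w p a) else 0

/-- Number of points of `S` with label `a`. -/
def cnt (S : Finset P) (w : P → α) (a : α) : ℕ := (S.filter (fun p => w p = a)).card

lemma cnt_eq_sum (S : Finset P) (w : P → α) (a : α) :
    (cnt S w a : ℝ) = ∑ p ∈ S, if w p = a then 1 else 0 := by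
  simp [cnt]

lemma cnt_update_new {S : Finset P} {w : P → α} {a : α} {p : P} (hp : p ∈ S) (h : w p ≠ a) :
    cnt S (update w p a) a = cnt S w a + 1 := by
  unfold cnt
  have : S.filter (fun q => update w p a q = a) = insert p (S.filter (fun q => w q = a)) := by
    ext q
    by_cases hq : q = p
    · subst hq; simp [hp]
    · simp [hq]
  rw [this, card_insert_of_notMem (by simp [h])]

lemma cnt_update_old {S : Finset P} {w : P → α} {a b : α} {p : P} (hp : p ∈ S) (h : w p = b)
    (hab : a ≠ b) : cnt S (update w p a) b + 1 = cnt S w b := by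
  have := cnt_update_new (S := S) (w := update w p a) (a := b) hp (by simpa using hab)
  rw [← this]
  congr 1
  rw [update_idem, ← h, update_eq_self]

lemma mv_comm {S : Finset P} {a b : α} (hab : a ≠ b) (f : (P → α) → ℝ) (w : P → α) :
    mv S b a (mv S a b f) w - mv S a b (mv S b a f) w
      = ((cnt S w a : ℝ) - cnt S w b) * f w := by
  have key : ∀ (a b : α), a ≠ b → mv S b a (mv S a b f) w =
      (∑ p ∈ S, ∑ q ∈ S, if p ≠ q ∧ w p = a ∧ w q = b then f (update (update w p b) q a) else 0)
        + (cnt S w a : ℝ) * f w := by
    intro a b hab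
    rw [cnt_eq_sum, sum_mul, ← sum_add_distrib]
    unfold mv
    refine sum_congr rfl fun p hp => ?_
    by_cases h : w p = a
    · simp only [h, if_true, true_and, one_mul]
      rw [← add_sum_erase S _ hp, ← add_sum_erase S _ hp]
      have e1 : update (update w p b) p a = w := by rw [update_idem, ← h, update_eq_self]
      simp only [update_self, if_true, e1, ne_eq, not_true, false_and, if_false, zero_add]
      rw [add_comm]
      congr 1
      refine sum_congr rfl fun q hq => ?_
      have hqp : q ≠ p := (mem_erase.1 hq).1
      simp [update_of_ne hqp, hqp.symm]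
    · simp [h]
  rw [key a b hab, key b a hab.symm, sum_comm]
  have : (∑ q ∈ S, ∑ p ∈ S, if p ≠ q ∧ w p = a ∧ w q = b then f (update (update w p b) q a) else 0)
      = ∑ p ∈ S, ∑ q ∈ S,
        if p ≠ q ∧ w p = b ∧ w q = a then f (update (update w p a) q b) else 0 := by
    refine sum_congr rfl fun p _ => sum_congr rfl fun q _ => ?_
    by_cases h : q = p
    · simp [h]
    · have h' : p ≠ q := fun e => h e.symm
      rw [update_comm h]
      simp [h, h', and_comm]
  rw [this]; ring

variable [Fintype α]

lemma mv_adj (S : Finset P) (a b : α) (f g : (P → α) → ℝ) :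
    ∑ w, mv S a b f w * g w = ∑ w, f w * mv S b a g w := by
  unfold mv
  simp_rw [sum_mul, mul_sum]
  rw [sum_comm, sum_comm (s := univ)]
  refine sum_congr rfl fun p _ => ?_
  simp_rw [ite_mul, mul_ite, zero_mul, mul_zero]
  rw [← sum_filter, ← sum_filter]
  refine sum_nbij' (fun w => update w p a) (fun w => update w p b) ?_ ?_ ?_ ?_ ?_
  · intro w _; simp
  · intro w _; simp
  · intro w hw
    have : w p = b := by simpa using hw
    simp [← this]
  · intro w hw
    have : w p = a := by simpa using hw
    simp [← this]
  · intro w hw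
    have : w p = b := by simpa using hw
    simp [← this]

lemma mv_inj {S : Finset P} {a b : α} (hab : a ≠ b) {f : (P → α) → ℝ}
    (hf : ∀ w, f w ≠ 0 → cnt S w b < cnt S w a) (h : mv S a b f = 0) : f = 0 := by
  have h1 : ∑ w, f w * (mv S b a (mv S a b f) w - mv S a b (mv S b a f) w)
      = ∑ w, ((cnt S w a : ℝ) - cnt S w b) * f w ^ 2 :=
    sum_congr rfl fun w _ => by rw [mv_comm hab]; ring
  have h2 : ∑ w, f w * (mv S b a (mv S a b f) w - mv S a b (mv S b a f) w)
      = - ∑ w, (mv S b a f w) ^ 2 := by
    simp_rw [mul_sub]
    rw [sum_sub_distrib, ← mv_adj S b a f (mv S b a f), h]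
    simp [sq, mv]
  have h3 : ∀ w ∈ (univ : Finset (P → α)), 0 ≤ ((cnt S w a : ℝ) - cnt S w b) * f w ^ 2 := by
    intro w _
    by_cases hw : f w = 0
    · simp [hw]
    · have : (cnt S w b : ℝ) < cnt S w a := by exact_mod_cast hf w hw
      exact mul_nonneg (by linarith) (sq_nonneg _)
  have h4 : ∑ w, ((cnt S w a : ℝ) - cnt S w b) * f w ^ 2 = 0 := by
    have := sum_nonneg h3
    have h5 : 0 ≤ ∑ w, (mv S b a f w) ^ 2 := sum_nonneg fun w _ => sq_nonneg _
    linarith
  funext w
  by_contra hw
  have := (sum_eq_zero_iff_of_nonneg h3).1 h4 w (mem_univ _)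
  have h6 : (cnt S w b : ℝ) < cnt S w a := by exact_mod_cast hf w hw
  have hw' : f w ≠ 0 := hw
  have h7 : 0 < f w ^ 2 := by positivity
  nlinarith

/-- Pointwise form of the `sl₂` injectivity. -/
theorem mv_zero {S : Finset P} {a b : α} (hab : a ≠ b) {f : (P → α) → ℝ}
    (h : mv S a b f = 0) {w : P → α} (hw : cnt S w b < cnt S w a) : f w = 0 := by
  have := mv_inj (S := S) hab (f := fun u => if cnt S u b < cnt S u a then f u else 0)
    (by intro u hu; by_contra h'; simp [h'] at hu) (by
      funext u
      have hu := congrFun h u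
      unfold mv at hu ⊢
      by_cases hc : cnt S u b < cnt S u a + 2
      · refine Eq.trans ?_ hu
        refine sum_congr rfl fun p hp => ?_
        by_cases hb : u p = b
        · have e1 := cnt_update_new (S := S) (w := u) (a := a) hp (by rw [hb]; exact hab.symm)
          have e2 := cnt_update_old (S := S) (w := u) (a := a) hp hb hab
          have : cnt S (update u p a) b < cnt S (update u p a) a := by omega
          simp [hb, this]
        · simp [hb]
      · refine sum_eq_zero fun p hp => ?_
        by_cases hb : u p = b
        · have e1 := cnt_update_new (S := S) (w := u) (a := a) hp (by rw [hb]; exact hab.symm)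
          have e2 := cnt_update_old (S := S) (w := u) (a := a) hp hb hab
          have : ¬ cnt S (update u p a) b < cnt S (update u p a) a := by omega
          simp [hb, this]
        · simp [hb])
  simpa [hw] using congrFun this w

end Vale.Agent.P197
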