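import Vale.Agent.P197.Det
import Vale.Agent.P197.Sl2

namespace Vale.Agent.P197

open Finset Function Equiv

variable {P α : Type*} [Fintype P] [DecidableEq P] [DecidableEq α]

/-- The polytabloid with row labels `r` and column labels `c`, as a function on words. -/
noncomputable def polyt (r : P → α) (c : P → ℕ) (u : P → α) : ℝ :=
  D (fun p => (u p, c p)) (fun q => (r q, c q))

/-- Row and column labels of a filling of a Young diagram. -/
structure IsTab (r c : P → ℕ) : Prop where
  inj : ∀ p q, r p = r q → c p = c q → p = q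
  down : ∀ p i j, i ≤ r p → j ≤ c p → ∃ q, r q = i ∧ c q = j

lemma polyt_eq (r : P → α) (c : P → ℕ) (u : P → α) :
    polyt r c u = ∑ σ : Perm P, if u ∘ σ = r ∧ c ∘ σ = c then sg σ else 0 := by
  unfold polyt
  rw [D_eq]
  refine sum_congr rfl fun σ _ => ?_
  congr 1
  simp [funext_iff, forall_and]

lemma polyt_perm {r : P → α} {c : P → ℕ} {u : P → α} (h : polyt r c u ≠ 0) :
    ∃ σ : Perm P, u ∘ σ = r ∧ c ∘ σ = c := by
  by_contra h'
  push Not at h'
  exact h (by rw [polyt_eq]; exact sum_eq_zero fun σ _ => by simpa using fun a b => (h' σ a b).elim)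

lemma polyt_self {r : P → α} {c : P → ℕ} (h : ∀ p q, r p = r q → c p = c q → p = q) :
    polyt r c r = 1 :=
  D_self fun p q e => h p q (congrArg Prod.fst e) (congrArg Prod.snd e)

lemma polyt_comp (r : P → α) {c : P → ℕ} (u : P → α) {τ : Perm P} (h : c ∘ τ = c) :
    polyt r c (u ∘ τ) = sg τ * polyt r c u := by
  unfold polyt
  rw [← D_comp_left]
  congr 1
  funext p
  simp [show c (τ p) = c p from congrFun h p]

lemma polyt_map {β : Type*} [DecidableEq β] {φ : α → β} (hφ : Injective φ) (r : P → α)
    (c : P → ℕ) (u : P → α) : polyt (φ ∘ r) c (φ ∘ u) = polyt r c u :=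
  D_congr fun p q => by simp [hφ.eq_iff]

/-- The column antisymmetrizer. -/
noncomputable def asym (c : P → ℕ) (f : (P → α) → ℝ) (u : P → α) : ℝ :=
  ∑ σ : Perm P, if c ∘ σ = c then sg σ * f (u ∘ σ) else 0

lemma comp_iff {β : Type*} (u r : P → β) (σ : Perm P) : u ∘ σ = r ↔ u = r ∘ ⇑σ⁻¹ := by
  constructor
  · rintro rfl; funext p; simp
  · rintro rfl; funext p; simp

lemma comp_inv_iff {β : Type*} (c : P → β) (σ : Perm P) : c ∘ ⇑σ⁻¹ = c ↔ c ∘ σ = c := by
  rw [eq_comm, ← comp_iff]

lemma sum_polyt [Fintype α] (r : P → α) (c : P → ℕ) (f : (P → α) → ℝ) :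
    ∑ u, polyt r c u * f u = asym c f r := by
  simp_rw [polyt_eq, sum_mul]
  rw [sum_comm]
  unfold asym
  rw [← Equiv.sum_comp (Equiv.inv (Perm P))]
  refine sum_congr rfl fun σ _ => ?_
  simp only [Equiv.inv_apply, comp_iff _ r, inv_inv, comp_inv_iff, sg_inv]
  rw [sum_eq_single (r ∘ σ)]
  · simp
  · intro u _ hu; simp [hu]
  · simp

lemma asym_comp (c : P → ℕ) (f : (P → α) → ℝ) (u : P → α) {τ : Perm P} (h : c ∘ τ = c) :
    asym c f (u ∘ τ) = sg τ * asym c f u := by
  unfold asym
  rw [mul_sum, ← Equiv.sum_comp (Equiv.mulLeft τ) (fun σ => sg τ * _)]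
  refine sum_congr rfl fun σ _ => ?_
  have : c ∘ ⇑(τ * σ) = c ∘ σ := by rw [Perm.coe_mul, ← comp_assoc, h]
  simp only [Equiv.coe_mulLeft, this, sg_mul]
  split_ifs
  · rw [← mul_assoc, ← mul_assoc, sg_sq, one_mul]; rfl
  · simp

lemma IsTab.lt_height {r c : P → ℕ} (h : IsTab r c) (q : P) :
    r q < (univ.filter (fun p => c p = c q)).card := by
  have : range (r q + 1) ⊆ (univ.filter (fun p => c p = c q)).image r := by
    intro i hi
    obtain ⟨p, hp, hp'⟩ := h.down q i (c q) (by simpa [Nat.lt_succ_iff] using hi) le_rfl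
    exact mem_image.2 ⟨p, by simp [hp'], hp⟩
  have := (card_le_card this).trans card_image_le
  simpa using this

lemma IsTab.of_lt_height {r c : P → ℕ} (h : IsTab r c) {i j : ℕ}
    (hi : i < (univ.filter (fun p => c p = j)).card) : ∃ q, r q = i ∧ c q = j := by
  by_contra h'
  push Not at h'
  have : (univ.filter (fun p => c p = j)).card ≤ (range i).card := by
    refine card_le_card_of_injOn r (fun p hp => ?_) (fun p hp q hq e => ?_)
    · have hp' : c p = j := by simpa using hp
      by_contra hlt
      obtain ⟨q, hq, hq'⟩ := h.down p i j (by simpa using hlt) hp'.ge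
      exact h' q hq hq'
    · have hp' : c p = j := by simpa using hp
      have hq' : c q = j := by simpa using hq
      exact h.inj p q e (by rw [hp', hq'])
  simp at this
  omega

lemma IsTab.james {r c u : P → ℕ} (h : IsTab r c) (hs : ∑ p, u p = ∑ p, r p)
    (hu : ∀ p q, u p = u q → c p = c q → p = q) : ∃ τ : Perm P, u ∘ τ = r ∧ c ∘ τ = c := by
  have i1 : Injective (fun p => (u p, c p)) := fun p q e =>
    hu p q (congrArg Prod.fst e) (congrArg Prod.snd e)
  have i2 : Injective (fun p => (r p, c p)) := fun p q e =>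
    h.inj p q (congrArg Prod.fst e) (congrArg Prod.snd e)
  have hsub : univ.image (fun p => (u p, c p)) ⊆ univ.image (fun p => (r p, c p)) := by
    refine sub_of_sum (fun x : ℕ × ℕ =>
      2 * (x.1 : ℤ) - 2 * ((univ.filter (fun p => c p = x.2)).card : ℤ) + 1) ?_ ?_ ?_
    · intro x hx
      obtain ⟨q, _, rfl⟩ := mem_image.1 hx
      have := h.lt_height q
      simp only
      omega
    · intro x _ hx
      by_contra hlt
      obtain ⟨q, hq, hq'⟩ := h.of_lt_height (i := x.1) (j := x.2) (by omega)
      exact hx (mem_image.2 ⟨q, mem_univ _, Prod.ext hq hq'⟩)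
    · rw [sum_image (i1.injOn), sum_image (i2.injOn)]
      simp only [sum_add_distrib, sum_sub_distrib, ← mul_sum]
      have : ∑ p, (u p : ℤ) = ∑ p, (r p : ℤ) := by exact_mod_cast hs
      rw [this]
  have heq := eq_of_subset_of_card_le hsub
    (by rw [card_image_of_injective _ i1, card_image_of_injective _ i2])
  obtain ⟨σ, hσ⟩ := perm_of_image (a := fun p => (u p, c p)) i2 (fun q => by
    have : (r q, c q) ∈ univ.image (fun p => (u p, c p)) := by
      rw [heq]; exact mem_image.2 ⟨q, mem_univ _, rfl⟩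
    simpa using this)
  exact ⟨σ, funext fun q => congrArg Prod.fst (congrFun hσ q),
    funext fun q => congrArg Prod.snd (congrFun hσ q)⟩

variable {d : ℕ}

/-- Sum of the labels of a word. -/
def wt (u : P → Fin d) : ℕ := ∑ p, (u p : ℕ)

lemma wt_comp (u : P → Fin d) (σ : Perm P) : wt (u ∘ σ) = wt u :=
  Equiv.sum_comp σ (fun p => (u p : ℕ))

lemma asym_eq {r : P → Fin d} {c : P → ℕ} (h : IsTab (fun p => (r p : ℕ)) c)
    {f : (P → Fin d) → ℝ} (hf : ∀ u, f u ≠ 0 → wt u = wt r) (u : P → Fin d) :
    asym c f u = asym c f r * polyt r c u := by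
  by_cases hs : wt u = wt r
  · by_cases hu : ∀ p q, u p = u q → c p = c q → p = q
    · obtain ⟨τ, h1, h2⟩ := h.james (u := fun p => (u p : ℕ)) hs
        (fun p q e => hu p q (Fin.ext e))
      have h3 : u ∘ τ = r := funext fun p => Fin.ext (congrFun h1 p)
      have h4 := polyt_comp r u h2
      rw [h3, polyt_self (fun p q e => h.inj p q (congrArg Fin.val e))] at h4
      have h5 := asym_comp c f u h2
      rw [h3] at h5
      rw [h5, mul_comm (sg τ), mul_assoc, ← h4, mul_one]
    · push Not at hu
      obtain ⟨p, q, e1, e2, hpq⟩ := hu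
      have hc : c ∘ swap p q = c := by
        funext x; simp only [comp_apply]; rw [swap_apply_def]; split_ifs <;> simp_all
      have hu' : u ∘ swap p q = u := by
        funext x; simp only [comp_apply]; rw [swap_apply_def]; split_ifs <;> simp_all
      have h4 := polyt_comp r u hc
      have h5 := asym_comp c f u hc
      rw [hu', sg_swap hpq] at h4 h5
      have h6 : polyt r c u = 0 := by linarith
      have h7 : asym c f u = 0 := by linarith
      rw [h6, h7, mul_zero]
  · have h6 : polyt r c u = 0 := by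
      by_contra h'
      obtain ⟨σ, h1, _⟩ := polyt_perm h'
      exact hs (by rw [← h1, wt_comp])
    have h7 : asym c f u = 0 := by
      refine sum_eq_zero fun σ _ => ?_
      have : f (u ∘ σ) = 0 := by
        by_contra h'
        exact hs (by rw [← hf _ h', wt_comp])
      simp [this]
    rw [h6, h7, mul_zero]

lemma mv_polyt {r : P → Fin d} {c : P → ℕ} (h : IsTab (fun p => (r p : ℕ)) c) {a b : Fin d}
    (hab : b < a) : mv univ a b (polyt r c) = 0 := by
  funext u
  set A : Matrix P P ℝ :=
    Matrix.of fun p q => if (u p, c p) = (r q, c q) then (1 : ℝ) else 0 with hA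
  set T : Matrix P P ℝ :=
    Matrix.of fun q' q => if r q' = b ∧ r q = a ∧ c q' = c q then (1 : ℝ) else 0 with hT
  have h1 := sum_updateRow A T
  have h2 : T.trace = 0 := by
    refine sum_eq_zero fun q _ => ?_
    have : ¬ (r q = b ∧ r q = a) := fun e => hab.ne (e.1.symm.trans e.2)
    simp [hT]; tauto
  rw [h2, zero_mul] at h1
  rw [Pi.zero_apply, ← h1]
  refine sum_congr rfl fun p _ => ?_
  have hrow : ∀ q, (A * T) p q = if u p = b ∧ (a, c p) = (r q, c q) then 1 else 0 := by
    intro q
    rw [Matrix.mul_apply]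
    by_cases hq : r q = a
    · obtain ⟨q', e1, e2⟩ := h.down q b (c q) (by simp only [hq]; exact hab.le) le_rfl
      have e3 : r q' = b := Fin.ext e1
      rw [sum_eq_single q']
      · simp [hA, hT, e3, e2, hq]
      · intro y _ hy
        have : ¬ (r y = b ∧ c y = c q) := fun e =>
          hy (h.inj y q' (by simp only [e.1, e3]) (by rw [e.2, e2]))
        simp [hT]; tauto
      · simp
    · have hq' : ¬ a = r q := fun e => hq e.symm
      simp [hT, hq, hq']
  by_cases hb : u p = b
  · rw [if_pos hb]
    unfold polyt D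
    congr 1
    ext p' q
    by_cases hp : p' = p
    · subst hp; simp [hrow, hb]
    · simp [Matrix.updateRow_ne hp, hA, update_of_ne hp]
  · rw [if_neg hb]
    symm
    refine Matrix.det_eq_zero_of_row_eq_zero p fun q => ?_
    simp [hrow, hb]

end Vale.Agent.P197
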