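import Vale.Agent.P197.Poly

namespace Vale.Agent.P197

open Finset Function Equiv

variable {P : Type*} [Fintype P] [DecidableEq P] {n d : ℕ}

/-- Lexicographic key of a word. -/
def key (pos : P ≃ Fin n) (w : P → Fin d) : Lex (Fin n → Fin d) := toLex (w ∘ pos.symm)

omit [Fintype P] [DecidableEq P] in
lemma key_lt (pos : P ≃ Fin n) (w u : P → Fin d) :
    key pos w < key pos u ↔ ∃ p, (∀ q, pos q < pos p → w q = u q) ∧ w p < u p := by
  constructor
  · rintro ⟨i, h1, h2⟩
    refine ⟨pos.symm i, fun q hq => ?_, h2⟩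
    simpa [key] using h1 (pos q) (by simpa using hq)
  · rintro ⟨p, h1, h2⟩
    refine ⟨pos p, fun j hj => ?_, by simpa [key] using h2⟩
    exact h1 (pos.symm j) (by simpa using hj)

omit [Fintype P] [DecidableEq P] in
lemma key_inj (pos : P ≃ Fin n) : Injective (key (d := d) pos) := by
  intro w u h
  funext p
  simpa using congrFun (toLex.injective h) (pos p)

/-- Points from `p` on. -/
def suf (pos : P ≃ Fin n) (p : P) : Finset P := univ.filter (fun q => pos p ≤ pos q)

lemma lattice (pos : P ≃ Fin n) {f : (P → Fin d) → ℝ} {w : P → Fin d} (hw : f w ≠ 0)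
    (hmax : ∀ u, key pos w < key pos u → f u = 0) {a b : Fin d} (hab : b < a)
    (hf : mv univ a b f = 0) (p0 : P) : cnt (suf pos p0) w a ≤ cnt (suf pos p0) w b := by
  by_contra hlt
  have h0 : mv (suf pos p0) a b
      (fun u => if ∀ q, pos q < pos p0 → u q = w q then f u else 0) = 0 := by
    funext u
    by_cases hu : ∀ q, pos q < pos p0 → u q = w q
    · have h1 := congrFun hf u
      unfold mv at h1 ⊢
      refine Eq.trans ?_ h1
      refine (sum_subset_zero_on_sdiff (subset_univ _) (fun p hp => ?_) (fun p hp => ?_))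
      · have hp' : pos p < pos p0 := by simpa [suf] using hp
        split_ifs with hb
        · refine hmax _ ((key_lt pos _ _).2 ⟨p, fun q hq => ?_, ?_⟩)
          · have : q ≠ p := by rintro rfl; exact lt_irrefl _ hq
            rw [update_of_ne this, hu q (hq.trans hp')]
          · rw [update_self, ← hu p hp', hb]; exact hab
        · rfl
      · have hp' : pos p0 ≤ pos p := by simpa [suf] using hp
        have : ∀ q, pos q < pos p0 → update u p a q = w q := by
          intro q hq
          have : q ≠ p := by rintro rfl; exact absurd hq (not_lt.2 hp')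
          rw [update_of_ne this, hu q hq]
        simp only [if_pos this]
    · refine sum_eq_zero fun p hp => ?_
      have hp' : pos p0 ≤ pos p := by simpa [suf] using hp
      have : ¬ ∀ q, pos q < pos p0 → update u p a q = w q := by
        intro h
        refine hu fun q hq => ?_
        have : q ≠ p := by rintro rfl; exact absurd hq (not_lt.2 hp')
        rw [← h q hq, update_of_ne this]
      simp only [if_neg this, ite_self]
  have := mv_zero hab.ne' h0 (w := w) (by omega)
  exact hw (by simpa using this)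

/-- Column labels attached to a word. -/
def colOf (pos : P ≃ Fin n) (w : P → Fin d) (p : P) : ℕ :=
  (univ.filter (fun q => pos p < pos q ∧ w q = w p)).card

lemma colOf_lt (pos : P ≃ Fin n) (w : P → Fin d) {p q : P} (h : pos p < pos q) (e : w p = w q) :
    colOf pos w q < colOf pos w p := by
  refine card_lt_card ⟨fun x hx => ?_, fun hs => ?_⟩
  · simp only [mem_filter, mem_univ, true_and] at hx ⊢
    exact ⟨h.trans hx.1, hx.2.trans e.symm⟩
  · have := hs (show q ∈ _ by simp [h, e])
    simp at this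

lemma colOf_inj (pos : P ≃ Fin n) (w : P → Fin d) {p q : P} (e : w p = w q)
    (h : colOf pos w p = colOf pos w q) : p = q := by
  rcases lt_trichotomy (pos p) (pos q) with h1 | h1 | h1
  · exact absurd h (colOf_lt pos w h1 e).ne'
  · exact pos.injective h1
  · exact absurd h (colOf_lt pos w h1 e.symm).ne

lemma colOf_lt_cnt (pos : P ≃ Fin n) (w : P → Fin d) {p q : P} (h : pos p ≤ pos q) :
    colOf pos w q < cnt (suf pos p) w (w q) := by
  refine card_lt_card ⟨fun x hx => ?_, fun hs => ?_⟩
  · simp only [mem_filter, mem_univ, true_and, suf] at hx ⊢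
    exact ⟨h.trans hx.1.le, hx.2⟩
  · have := hs (show q ∈ _ by simp [h, suf])
    simp at this

lemma colOf_surj (pos : P ≃ Fin n) (w : P → Fin d) (p : P) (a : Fin d) {j : ℕ}
    (hj : j < cnt (suf pos p) w a) : ∃ q, pos p ≤ pos q ∧ w q = a ∧ colOf pos w q = j := by
  have h1 : ((suf pos p).filter (fun q => w q = a)).image (colOf pos w)
      = range (cnt (suf pos p) w a) := by
    refine eq_of_subset_of_card_le (fun x hx => ?_) ?_
    · obtain ⟨q, hq, rfl⟩ := mem_image.1 hx
      simp only [mem_filter, mem_univ, true_and, suf] at hq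
      rw [mem_range, ← hq.2]
      exact colOf_lt_cnt pos w hq.1
    · rw [card_range, card_image_of_injOn]
      · rfl
      · intro x hx y hy e
        have hx' : w x = a := (mem_filter.1 hx).2
        have hy' : w y = a := (mem_filter.1 hy).2
        exact colOf_inj pos w (hx'.trans hy'.symm) e
  have : j ∈ range (cnt (suf pos p) w a) := mem_range.2 hj
  rw [← h1] at this
  obtain ⟨q, hq, e⟩ := mem_image.1 this
  simp only [mem_filter, mem_univ, true_and, suf] at hq
  exact ⟨q, hq.1, hq.2, e⟩

lemma down_of_lattice (pos : P ≃ Fin n) {w : P → Fin d}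
    (hl : ∀ a b : Fin d, b < a → ∀ p, cnt (suf pos p) w a ≤ cnt (suf pos p) w b) (p : P)
    {b : Fin d} (hb : b ≤ w p) {j : ℕ} (hj : j ≤ colOf pos w p) :
    ∃ q, pos p ≤ pos q ∧ w q = b ∧ colOf pos w q = j := by
  refine colOf_surj pos w p b ?_
  have h1 := colOf_lt_cnt pos w (le_refl (pos p))
  rcases hb.lt_or_eq with h | h
  · have := hl _ _ h p; omega
  · rw [h]; omega

lemma hw_span (pos : P ≃ Fin n) (s : ℕ) (x : Lex (Fin n → Fin d)) :
    ∀ f : (P → Fin d) → ℝ, (∀ w, f w ≠ 0 → wt w = s) →
      (∀ a b : Fin d, b < a → mv univ a b f = 0) → (∀ w, f w ≠ 0 → key pos w ≤ x) →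
      f ∈ Submodule.span ℝ {e | ∃ (r : P → Fin d) (c : P → ℕ),
        IsTab (fun p => (r p : ℕ)) c ∧ wt r = s ∧ e = polyt r c} := by
  induction x using WellFoundedLT.induction with
  | ind x ih =>
  have step : ∀ f : (P → Fin d) → ℝ, (∀ w, f w ≠ 0 → wt w = s) →
      (∀ a b : Fin d, b < a → mv univ a b f = 0) → (∀ w, f w ≠ 0 → key pos w < x) →
      f ∈ Submodule.span ℝ {e | ∃ (r : P → Fin d) (c : P → ℕ),
        IsTab (fun p => (r p : ℕ)) c ∧ wt r = s ∧ e = polyt r c} := by
    intro f h1 h2 h3
    by_cases h0 : f = 0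
    · rw [h0]; exact Submodule.zero_mem _
    · obtain ⟨w0, hw0⟩ := Function.ne_iff.1 h0
      obtain ⟨w, hw, hmax⟩ := exists_max_image (univ.filter (fun u => f u ≠ 0)) (key pos)
        ⟨w0, by simpa using hw0⟩
      exact ih _ (h3 w (by simpa using hw)) f h1 h2 fun u hu => hmax u (by simpa using hu)
  intro f h1 h2 h3
  by_cases hx : ∃ w, f w ≠ 0 ∧ key pos w = x
  · obtain ⟨w, hw, rfl⟩ := hx
    have hl : ∀ a b : Fin d, b < a → ∀ p, cnt (suf pos p) w a ≤ cnt (suf pos p) w b :=
      fun a b hab p => lattice pos hw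
        (fun u hu => by by_contra h; exact absurd hu (not_lt.2 (h3 u h))) hab (h2 a b hab) p
    have ht : IsTab (fun p => (w p : ℕ)) (colOf pos w) := by
      refine ⟨fun p q e => colOf_inj pos w (Fin.ext e), fun p i j hi hj => ?_⟩
      obtain ⟨q, _, e1, e2⟩ := down_of_lattice pos hl p
        (b := ⟨i, lt_of_le_of_lt hi (w p).2⟩) hi hj
      exact ⟨q, by simp only [e1], e2⟩
    have hlead : ∀ u, polyt w (colOf pos w) u ≠ 0 → key pos u ≤ key pos w := by
      intro u hu
      obtain ⟨σ, e1, e2⟩ := polyt_perm hu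
      by_contra hlt
      obtain ⟨p, a1, a2⟩ := (key_lt pos _ _).1 (not_le.1 hlt)
      have b1 : ∀ y, u y = w (σ.symm y) := fun y => by rw [← e1]; simp
      have b2 : ∀ y, colOf pos w (σ.symm y) = colOf pos w y := fun y => by
        have := congrFun e2 (σ.symm y); simpa using this.symm
      obtain ⟨q, c1, c2, c3⟩ := down_of_lattice pos hl (σ.symm p) (b := w p)
        (by rw [← b1]; exact a2.le) le_rfl
      have c4 : q = p := colOf_inj pos w c2 (c3.trans (b2 p))
      subst c4
      have c5 : σ.symm q ≠ q := by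
        intro e; rw [b1, e] at a2; exact lt_irrefl _ a2
      have c6 : pos (σ.symm q) < pos q := lt_of_le_of_ne c1 (fun e => c5 (pos.injective e))
      have c7 := a1 _ c6
      rw [b1] at c7
      have c8 := colOf_inj pos w c7 (b2 _).symm
      exact c5 (σ.symm.injective c8).symm
    have hmem : polyt w (colOf pos w) ∈ Submodule.span ℝ {e | ∃ (r : P → Fin d) (c : P → ℕ),
        IsTab (fun p => (r p : ℕ)) c ∧ wt r = s ∧ e = polyt r c} :=
      Submodule.subset_span ⟨w, _, ht, h1 w hw, rfl⟩
    have := step (f - f w • polyt w (colOf pos w)) (fun u hu => ?_) (fun a b hab => ?_)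
      (fun u hu => ?_)
    · have h4 := Submodule.add_mem _ this (Submodule.smul_mem _ (f w) hmem)
      rwa [sub_add_cancel] at h4
    · by_cases h5 : f u = 0
      · have : polyt w (colOf pos w) u ≠ 0 := by intro h6; simp [h5, h6] at hu
        obtain ⟨σ, e1, _⟩ := polyt_perm this
        rw [← h1 w hw, ← e1, wt_comp]
      · exact h1 u h5
    · funext u
      have e1 := congrFun (h2 a b hab) u
      have e2 := congrFun (mv_polyt ht hab) u
      unfold mv at e1 e2 ⊢
      simp only [Pi.zero_apply, Pi.sub_apply, Pi.smul_apply, smul_eq_mul] at e1 e2 ⊢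
      have : ∀ p, (if u p = b then f (update u p a) - f w * polyt w (colOf pos w) (update u p a)
          else 0) = (if u p = b then f (update u p a) else 0)
            - f w * (if u p = b then polyt w (colOf pos w) (update u p a) else 0) := by
        intro p; split_ifs <;> simp
      simp_rw [this]
      rw [sum_sub_distrib, ← mul_sum, e1, e2]; simp
    · have hne : u ≠ w := by
        rintro rfl
        apply hu
        simp [polyt_self (fun p q e => ht.inj p q (congrArg Fin.val e))]
      refine lt_of_le_of_ne ?_ (fun e => hne (key_inj pos e))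
      by_cases h5 : f u = 0
      · exact hlead u (by intro h6; simp [h5, h6] at hu)
      · exact h3 u h5
  · push Not at hx
    exact step f h1 h2 fun w hw => lt_of_le_of_ne (h3 w hw) (hx w hw)

lemma wt_update (u : P → Fin d) (p : P) (a : Fin d) : wt (update u p a) + u p = wt u + a := by
  unfold wt
  rw [← add_sum_erase _ _ (mem_univ p), ← add_sum_erase _ (fun q => (u q : ℕ)) (mem_univ p)]
  have : ∑ q ∈ univ.erase p, (update u p a q : ℕ) = ∑ q ∈ univ.erase p, (u q : ℕ) :=
    sum_congr rfl fun q hq => by rw [update_of_ne (mem_erase.1 hq).1]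
  rw [this, update_self]; ring

/-- A right-invariant family of test functions that detects every polytabloid detects every
nonzero function on words. -/
theorem sep (M : Set (Perm P → ℝ)) (hM : ∀ Φ ∈ M, ∀ h, (fun g => Φ (g * h)) ∈ M)
    (htab : ∀ (r : P → Fin d) (c : P → ℕ), IsTab (fun p => (r p : ℕ)) c →
      ∃ u0 : P → Fin d, ∃ Φ ∈ M, ∑ g : Perm P, polyt r c (u0 ∘ g) * Φ g ≠ 0)
    {f : (P → Fin d) → ℝ} (hf : f ≠ 0) :
    ∃ u0 : P → Fin d, ∃ Φ ∈ M, ∑ g : Perm P, f (u0 ∘ g) * Φ g ≠ 0 := by
  classical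
  by_contra hcon
  let N : ((P → Fin d) → ℝ) → Prop := fun f =>
    ∀ u0 : P → Fin d, ∀ Φ ∈ M, ∑ g : Perm P, f (u0 ∘ g) * Φ g = 0
  have hN : N f := by
    intro u0 Φ hΦ; by_contra h; exact hcon ⟨u0, Φ, hΦ, h⟩
  have hex : ∃ s, ∃ f, N f ∧ ∃ w, f w ≠ 0 ∧ wt w = s := by
    obtain ⟨w, hw⟩ := Function.ne_iff.1 hf
    exact ⟨_, f, hN, w, hw, rfl⟩
  obtain ⟨f1, hN1, w, hw, hs⟩ := Nat.find_spec hex
  have hmin : ∀ f, N f → ∀ w, f w ≠ 0 → Nat.find hex ≤ wt w :=
    fun f h1 w h2 => Nat.find_min' hex ⟨f, h1, w, h2, rfl⟩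
  generalize Nat.find hex = s at hs hmin
  set f0 : (P → Fin d) → ℝ := fun u => if wt u = s then f1 u else 0 with hf0
  have hN0 : N f0 := by
    intro u0 Φ hΦ
    simp only [hf0, wt_comp]
    split_ifs
    · exact hN1 u0 Φ hΦ
    · simp
  have hs0 : ∀ u, f0 u ≠ 0 → wt u = s := by
    intro u hu; by_contra h; simp [hf0, h] at hu
  have hmv : ∀ a b : Fin d, b < a → mv univ a b f0 = 0 := by
    intro a b hab
    have hN2 : N (mv univ a b f0) := by
      intro u0 Φ hΦ
      have : ∀ g : Perm P, mv univ a b f0 (u0 ∘ g) * Φ g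
          = ∑ q, if u0 q = b then f0 (update u0 q a ∘ g) * Φ g else 0 := by
        intro g
        unfold mv
        rw [sum_mul]
        conv_rhs => rw [← Equiv.sum_comp g]
        refine sum_congr rfl fun p _ => ?_
        rw [update_comp_equiv]
        simp
      simp_rw [this]
      rw [sum_comm]
      refine sum_eq_zero fun q _ => ?_
      split_ifs
      · exact hN0 _ Φ hΦ
      · simp
    funext u
    by_contra hu
    have h1 := hmin _ hN2 u hu
    obtain ⟨p, _, hp⟩ := exists_ne_zero_of_sum_ne_zero hu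
    have hb : u p = b := by by_contra h; simp [h] at hp
    rw [if_pos hb] at hp
    have h2 := wt_update u p a
    rw [hs0 _ hp, hb] at h2
    have : (b : ℕ) < a := hab
    omega
  obtain ⟨wm, _, hwm⟩ := exists_max_image (univ : Finset (P → Fin d))
    (key (Fintype.equivFin P)) ⟨w, mem_univ _⟩
  have hspan := hw_span (Fintype.equivFin P) s _ f0 hs0 hmv (fun u _ => hwm u (mem_univ _))
  have hpair : ∃ (r : P → Fin d) (c : P → ℕ), IsTab (fun p => (r p : ℕ)) c ∧ wt r = s ∧
      ∑ u, polyt r c u * f0 u ≠ 0 := by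
    by_contra h
    push Not at h
    have : ∀ e ∈ Submodule.span ℝ {e | ∃ (r : P → Fin d) (c : P → ℕ),
        IsTab (fun p => (r p : ℕ)) c ∧ wt r = s ∧ e = polyt r c}, ∑ u, e u * f0 u = 0 := by
      intro e he
      induction he using Submodule.span_induction with
      | mem x hx => obtain ⟨r, c, h1, h2, rfl⟩ := hx; exact h r c h1 h2
      | zero => simp
      | add x y _ _ hx hy => simp [add_mul, sum_add_distrib, hx, hy]
      | smul a x _ hx => simp [mul_assoc, ← mul_sum, hx]
    have h2 := (sum_eq_zero_iff_of_nonneg (fun u _ => mul_self_nonneg (f0 u))).1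
      (this f0 hspan) w (mem_univ _)
    apply hw
    simpa [hf0, hs] using h2
  obtain ⟨r, c, ht, hr, hne⟩ := hpair
  rw [sum_polyt] at hne
  obtain ⟨u0, Φ, hΦ, h⟩ := htab r c ht
  apply h
  have h1 : ∑ g : Perm P, asym c f0 (u0 ∘ g) * Φ g = 0 := by
    unfold asym
    simp_rw [sum_mul]
    rw [sum_comm]
    refine sum_eq_zero fun σ _ => ?_
    split_ifs
    · have := hN0 u0 _ (hM Φ hΦ σ⁻¹)
      rw [← Equiv.sum_comp (Equiv.mulRight σ)] at this
      simp only [Equiv.coe_mulRight, mul_inv_cancel_right, Perm.coe_mul] at this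
      simp_rw [mul_assoc]
      rw [← mul_sum]
      exact mul_eq_zero_of_right _ this
    · simp
  rw [sum_congr rfl (fun g _ => by
    rw [asym_eq ht (fun u hu => (hs0 u hu).trans hr.symm), mul_assoc]), ← mul_sum] at h1
  exact (mul_eq_zero.1 h1).resolve_left hne

end Vale.Agent.P197
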