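import Vale.Agent.P197.Cliff
import Vale.Agent.P197.Sep

namespace Vale.Agent.P197

open Finset Function Equiv

variable {P : Type*} [Fintype P] [DecidableEq P]

theorem rim (m : ℕ) (hP : Fintype.card P = 2 * (m + 1) + 1) {h : (P → Fin 4) → ℝ} (hh : h ≠ 0) :
    ∃ (u0 : P → Fin 4) (L c L' c' : P → ℕ), Stair (m + 2) L L' ∧ (∀ p, m ≤ L p + L' p) ∧
      (∀ p, c p < 2) ∧ (∀ p, c' p < 2) ∧
      ∑ g : Perm P, h (u0 ∘ g) * K (m + 2) L (c ∘ g) L' (c' ∘ g) ≠ 0 := by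
  have := sep (d := 4) {Φ | ∃ L c L' c' : P → ℕ, Stair (m + 2) L L' ∧ (∀ p, m ≤ L p + L' p) ∧
      (∀ p, c p < 2) ∧ (∀ p, c' p < 2) ∧ Φ = fun g : Perm P => K (m + 2) L (c ∘ g) L' (c' ∘ g)}
    ?_ ?_ hh
  · obtain ⟨u0, Φ, ⟨L, c, L', c', h1, h2, h3, h4, rfl⟩, h5⟩ := this
    exact ⟨u0, L, c, L', c', h1, h2, h3, h4, h5⟩
  · rintro Φ ⟨L, c, L', c', h1, h2, h3, h4, rfl⟩ k
    refine ⟨L ∘ ⇑k⁻¹, c, L' ∘ ⇑k⁻¹, c', ⟨h1.1.comp k⁻¹.injective, fun p => h1.2 _⟩,
      fun p => h2 _, h3, h4, ?_⟩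
    funext g
    exact K_shift _ L (c ∘ g) L' (c' ∘ g) k
  intro r c ht
  by_contra hcon
  push Not at hcon
  let e0 : Fin (2 * (m + 1) + 1) ≃ P := (Fintype.equivFinOfCardEq hP).symm
  let π : Fin (2 * (m + 1) + 1) ≃ P := (Tuple.sort (c ∘ e0)).trans e0
  have hπ : Monotone (c ∘ π) := Tuple.monotone_sort (c ∘ e0)
  set L : P → ℕ := rimL (m + 1) ∘ π.symm with hL
  set L' : P → ℕ := rimL' (m + 1) ∘ π.symm with hL'
  have hst : Stair (m + 2) L L' := by
    refine ⟨fun p q e => π.symm.injective (Fin.ext ?_), fun p => ?_⟩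
    · have := (π.symm p).2
      have := (π.symm q).2
      simp only [hL, hL', rimL, rimL', comp_apply, Prod.mk.injEq] at e
      omega
    · have := (π.symm p).2
      simp only [hL, hL', rimL, rimL', comp_apply]
      omega
  have hlow : ∀ p, m ≤ L p + L' p := by
    intro p
    have := (π.symm p).2
    simp only [hL, hL', rimL, rimL', comp_apply]
    omega
  set F : (P → Fin 4) × (P → Fin 2 × Fin 2) → ℝ := fun x => polyt r c x.1 *
    ((∏ p, (NN (x.1 p) (x.2 p).1 (x.2 p).2 : ℝ)) *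
      K (m + 2) L (fun p => (x.2 p).1) L' (fun p => (x.2 p).2)) with hF
  have h1 : ∑ g : Perm P, ∑ x, F x = 0 := by
    have : ∀ g : Perm P, ∑ x, F x = ∑ x : (P → Fin 4) × (P → Fin 2 × Fin 2),
        (∏ p, (NN (x.1 p) (x.2 p).1 (x.2 p).2 : ℝ)) * (polyt r c (x.1 ∘ g) *
          K (m + 2) L ((fun p => ((x.2 p).1 : ℕ)) ∘ g) L' ((fun p => ((x.2 p).2 : ℕ)) ∘ g)) := by
      intro g
      rw [← Equiv.sum_comp ((pre _ g).prodCongr (pre _ g))]
      refine sum_congr rfl fun x _ => ?_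
      rw [← Equiv.prod_comp g (fun p => (NN (x.1 p) (x.2 p).1 (x.2 p).2 : ℝ)), mul_left_comm]
      rfl
    rw [sum_congr rfl fun g _ => this g, sum_comm]
    refine sum_eq_zero fun x _ => ?_
    rw [← mul_sum, hcon x.1 _ ⟨L, _, L', _, hst, hlow, fun p => (x.2 p).1.2,
      fun p => (x.2 p).2.2, rfl⟩, mul_zero]
  have h2 : ∑ x, F x = 0 := by
    rw [sum_const, nsmul_eq_mul] at h1
    exact (mul_eq_zero.1 h1).resolve_left (by exact_mod_cast card_ne_zero.2 univ_nonempty)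
  have h3 : ∀ u : P → Fin 4, ∑ cc : P → Fin 2 × Fin 2,
      (∏ p, (NN (u p) (cc p).1 (cc p).2 : ℝ)) *
        K (m + 2) L (fun p => (cc p).1) L' (fun p => (cc p).2)
      = - sg (Fin.revPerm : Perm (Fin (2 * (m + 1) + 1))) * tau (u ∘ π) := by
    intro u
    rw [← sum_K_rim, ← Equiv.sum_comp (π.arrowCongr (Equiv.refl (Fin 2 × Fin 2)))]
    refine sum_congr rfl fun cc _ => ?_
    rw [← Equiv.prod_comp π, ← K_equiv _ L _ L' _ π]
    congr 1
    · simp
    · congr 1 <;> funext p <;> simp [hL, hL']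
  rw [Fintype.sum_prod_type] at h2
  simp only [hF, ← mul_sum, h3] at h2
  rw [sum_polyt] at h2
  unfold asym at h2
  have h4 : ∀ σ : Perm P, (if c ∘ σ = c then
      sg σ * (- sg (Fin.revPerm : Perm (Fin (2 * (m + 1) + 1))) * tau ((r ∘ σ) ∘ π)) else 0)
      = (if c ∘ σ = c then 1 else 0) *
        (- sg (Fin.revPerm : Perm (Fin (2 * (m + 1) + 1))) * tau (r ∘ π)) := by
    intro σ
    split_ifs with hσ
    · have e1 : (r ∘ σ) ∘ π = (r ∘ π) ∘ (π.symm.permCongr σ) := by funext p; simp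
      have e2 : sg (π.symm.permCongr σ) = sg σ := by simp [sg]
      rw [e1, tau_comp (r := r ∘ π) (σ := π.symm.permCongr σ) hπ
        (fun p q a b => π.injective (ht.inj _ _ (congrArg Fin.val a) b))
        (by funext p; simpa using congrFun hσ (π p)), e2]
      linear_combination (- sg (Fin.revPerm : Perm (Fin (2 * (m + 1) + 1))) * tau (r ∘ π))
        * sg_sq σ
    · simp
  rw [sum_congr rfl fun σ _ => h4 σ, ← sum_mul] at h2
  have h5 : (0 : ℝ) < ∑ σ : Perm P, if c ∘ σ = c then 1 else 0 :=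
    sum_pos' (fun σ _ => by split_ifs <;> norm_num) ⟨1, mem_univ _, by simp⟩
  exact mul_ne_zero h5.ne' (mul_ne_zero (neg_ne_zero.2 (sg_ne _)) (tau_ne _)) h2

end Vale.Agent.P197
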