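import Vale.Agent.P197.Rim

namespace Vale.Agent.P197

open Finset Function Equiv

variable {P : Type*} [Fintype P] [DecidableEq P]

omit [Fintype P] in
lemma half (M : ℕ) (hM : 1 ≤ M) (s : Finset P) (hs : 2 * s.card = M * (M + 1)) (w : P → ℕ)
    (Λ : Finset ℕ) (hΛ : Λ.card = M + 1) (hw : ∀ p ∈ s, w p ∈ Λ) :
    ∃ Y ⊆ s, Y.card = M ∧ ∃ i ∈ Λ, ∃ k, (∀ p ∈ Y, w p = i ∨ w p = k) ∧
      ∀ p ∈ s \ Y, w p ∈ Λ.erase i := by
  set x : ℕ → ℕ := fun a => (s.filter (fun p => w p = a)).card with hx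
  have hsum : s.card = ∑ a ∈ Λ, x a := card_eq_sum_card_fiberwise hw
  obtain ⟨k, hk, hmax⟩ := exists_max_image Λ x (card_pos.1 (by omega))
  have hex : ∃ i ∈ Λ.erase k, x i ≤ M ∧ M ≤ x i + x k := by
    by_contra h
    push Not at h
    rw [← add_sum_erase _ _ hk] at hsum
    have hc : (Λ.erase k).card = M := by rw [card_erase_of_mem hk]; omega
    by_cases hkM : M ≤ x k
    · have : ∑ _a ∈ Λ.erase k, (M + 1) ≤ ∑ a ∈ Λ.erase k, x a := sum_le_sum fun i hi => by
        by_contra h'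
        have := h i hi (by omega)
        omega
      rw [sum_const, hc, smul_eq_mul] at this
      nlinarith
    · have : ∑ a ∈ Λ.erase k, (2 * x a + 1) ≤ ∑ _a ∈ Λ.erase k, M := sum_le_sum fun i hi => by
        have h1 := hmax i (mem_of_mem_erase hi)
        have := h i hi (by omega)
        omega
      rw [sum_const, hc, smul_eq_mul, sum_add_distrib, ← mul_sum, sum_const, hc, smul_eq_mul]
        at this
      nlinarith
  obtain ⟨i, hi, h1, h2⟩ := hex
  obtain ⟨T, hT, hTc⟩ := exists_subset_card_eq (s := s.filter (fun p => w p = k))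
    (n := M - x i) (by change _ ≤ x k; omega)
  refine ⟨s.filter (fun p => w p = i) ∪ T,
    union_subset (filter_subset _ _) (hT.trans (filter_subset _ _)), ?_, i,
    mem_of_mem_erase hi, k, fun p hp => ?_, fun p hp => ?_⟩
  · rw [card_union_of_disjoint, hTc]
    · change x i + _ = _; omega
    · rw [disjoint_left]
      intro p h3 h4
      exact (mem_erase.1 hi).1 ((mem_filter.1 h3).2.symm.trans (mem_filter.1 (hT h4)).2)
  · rcases mem_union.1 hp with h | h
    · exact Or.inl (mem_filter.1 h).2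
    · exact Or.inr (mem_filter.1 (hT h)).2
  · obtain ⟨h3, h4⟩ := mem_sdiff.1 hp
    exact mem_erase.2 ⟨fun e => h4 (mem_union_left _ (mem_filter.2 ⟨h3, e⟩)), hw p h3⟩

lemma elim_comp {A B β : Type*} (a : A → β) (b : B → β) (g₁ : Perm A) (g₂ : Perm B) :
    Sum.elim a b ∘ (Equiv.sumCongr g₁ g₂) = Sum.elim (a ∘ g₁) (b ∘ g₂) := by
  funext p; rcases p with p | p <;> rfl

lemma stepA {A B : Type*} [Fintype A] [DecidableEq A] [Fintype B] [DecidableEq B] {m : ℕ}
    (hA : Fintype.card A = 2 * (m + 1) + 1) (hB : 2 * Fintype.card B = m * (m + 1))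
    {f : (A ⊕ B → ℕ) → ℝ} (φ : Fin 4 → ℕ) (w : A → Fin 4)
    (hf : Dt m True (fun u : B → ℕ => f (Sum.elim (φ ∘ w) u))) : Dt (m + 2) True f := by
  obtain ⟨u₂, L₂, c₂, L₂', c₂', hst₂, h₂⟩ := hf
  have hst := hst₂ trivial
  obtain ⟨u₁, L₁, c₁, L₁', c₁', hst₁, hlow, hc₁, hc₁', h₁⟩ := rim m hA
    (h := fun v => ∑ g : Perm B, f (Sum.elim (φ ∘ v) (u₂ ∘ g)) * K m L₂ (c₂ ∘ g) L₂' (c₂' ∘ g))
    (fun e => h₂ (congrFun e w))
  refine ⟨Sum.elim (φ ∘ u₁) u₂, Sum.elim L₁ L₂, Sum.elim c₁ (fun p => c₂ p + 2),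
    Sum.elim L₁' L₂', Sum.elim c₁' (fun p => c₂' p + 2), fun _ => ⟨?_, ?_⟩, ?_⟩
  · rintro (p | p) (q | q) e <;> simp only [Sum.elim_inl, Sum.elim_inr, Prod.mk.injEq] at e
    · rw [hst₁.1 (Prod.ext e.1 e.2)]
    · have := hlow p; have := hst.2 q; omega
    · have := hlow q; have := hst.2 p; omega
    · rw [hst.1 (Prod.ext e.1 e.2)]
  · rintro (p | p)
    · exact hst₁.2 p
    · have := hst.2 p; simp only [Sum.elim_inr]; omega
  rw [sum_perm_sum]
  · convert h₁ using 2 with g₁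
    rw [sum_mul]
    refine sum_congr rfl fun g₂ _ => ?_
    rw [elim_comp, elim_comp, elim_comp]
    have := K_sum (m := m) (s := 2) (Sum.elim L₁ L₂) (Sum.elim L₁' L₂') (c₁ := c₁ ∘ g₁)
      (c₁' := c₁' ∘ g₁) (c₂ ∘ g₂) (c₂' ∘ g₂) (fun p => hc₁' _)
    rw [mul_assoc, mul_comm (K m _ _ _ _)]
    exact congrArg₂ _ rfl this
  · intro g hg
    have hK := right_ne_zero_of_mul hg
    rw [K_shift] at hK
    obtain ⟨b1, b2, b3, b4⟩ := K_ne hK
    have s1 : ∑ p : B, Sum.elim L₁ L₂ (g⁻¹ (Sum.inr p)) = ∑ x ∈ cells m, x.1 :=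
      sum_cells hB (b := c₂) (fun p q e => Sum.inr_injective (b3 (by
        simp only [Prod.mk.injEq] at e ⊢; exact ⟨e.1, by simp [e.2]⟩)))
        (fun p => by have := b1 (Sum.inr p); simp only [Sum.elim_inr, comp_apply] at this; omega)
    have s2 : ∑ p : B, Sum.elim L₁' L₂' (g⁻¹ (Sum.inr p)) = ∑ x ∈ cells m, x.1 :=
      sum_cells hB (b := c₂') (fun p q e => Sum.inr_injective (b4 (by
        simp only [Prod.mk.injEq] at e ⊢; exact ⟨e.1, by simp [e.2]⟩)))
        (fun p => by have := b2 (Sum.inr p); simp only [Sum.elim_inr, comp_apply] at this; omega)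
    have s3 : ∑ p : B, L₂ p = ∑ x ∈ cells m, x.1 := sum_cells hB hst.1 hst.2
    have s4 : ∑ p : B, L₂' p = ∑ x ∈ cells m, x.1 :=
      sum_cells hB (b := L₂) (fun p q e => hst.1 (by
        simp only [Prod.mk.injEq] at e ⊢; exact ⟨e.2, e.1⟩))
        (fun p => by have := hst.2 p; omega)
    have hinj : Injective (fun p : B => g⁻¹ (Sum.inr p)) := g⁻¹.injective.comp Sum.inr_injective
    have hsub : univ.image (fun p : B => g⁻¹ (Sum.inr p)) ⊆ univ.image (Sum.inr : B → A ⊕ B) := by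
      refine sub_of_sum (fun x => 2 * ((Sum.elim L₁ L₂ x : ℕ) : ℤ)
        + 2 * ((Sum.elim L₁' L₂' x : ℕ) : ℤ) - 2 * m + 1) ?_ ?_ ?_
      · intro x hx
        obtain ⟨p, _, rfl⟩ := mem_image.1 hx
        have := hst.2 p
        simp only [Sum.elim_inr]; omega
      · rintro (p | p) _ hx
        · have := hlow p
          simp only [Sum.elim_inl]; omega
        · simp at hx
      · rw [sum_image hinj.injOn,
          sum_image Sum.inr_injective.injOn]
        simp only [sum_add_distrib, sum_sub_distrib, ← mul_sum, comp_apply, Sum.elim_inr,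
          ← Nat.cast_sum, s1, s2, s3, s4, le_refl]
    have heq := eq_of_subset_of_card_le hsub (by
      rw [card_image_of_injective _ Sum.inr_injective,
        card_image_of_injective _ hinj])
    intro p
    have : Sum.inr p ∈ univ.image (fun p : B => g⁻¹ (Sum.inr p)) := by rw [heq]; simp
    obtain ⟨q, _, hq⟩ := mem_image.1 this
    exact ⟨q, by rw [← hq]; simp⟩

universe u

theorem partA (m : ℕ) : ∀ (P : Type u) [Fintype P] [DecidableEq P],
    2 * Fintype.card P = m * (m + 1) → ∀ (Λ : Finset ℕ), Λ.card = m + 1 →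
    ∀ (f : (P → ℕ) → ℝ) (w : P → ℕ), f w ≠ 0 → (∀ p, w p ∈ Λ) → Dt m True f := by
  induction m using Nat.twoStepInduction with
  | zero =>
    intro P _ _ hP Λ _ f w hf _
    haveI : IsEmpty P := Fintype.card_eq_zero_iff.1 (by omega)
    refine ⟨w, w, w, w, w, fun _ => ⟨fun p => isEmptyElim p, fun p => isEmptyElim p⟩, ?_⟩
    rw [Fintype.sum_subsingleton _ 1]
    simpa [K, D] using hf
  | one =>
    intro P _ _ hP Λ _ f w hf _
    haveI : Subsingleton P := Fintype.card_le_one_iff_subsingleton.1 (by omega)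
    refine ⟨w, 0, 0, 0, 0, fun _ => ⟨fun p q _ => Subsingleton.elim _ _, fun p => by simp⟩, ?_⟩
    rw [Fintype.sum_subsingleton _ 1]
    have : K 1 (0 : P → ℕ) 0 0 0 = 1 := by
      unfold K
      rw [if_pos (by simp)]
      exact D_self fun p q _ => Subsingleton.elim _ _
    simpa [this] using hf
  | more m ih _ =>
    intro P _ _ hP Λ hΛ f w hf hw
    obtain ⟨Y, -, hY, i, hi, k, hY1, hY2⟩ := half (m + 2) (by omega) univ (by simpa using hP) w Λ
      hΛ (fun p _ => hw p)
    have hc1 : (univ \ Y).card + (m + 2) = Fintype.card P := by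
      rw [← hY, card_sdiff_add_card_eq_card (subset_univ _), card_univ]
    obtain ⟨Z, hZs, hZ, j, hj, l, hZ1, hZ2⟩ := half (m + 1) (by omega) (univ \ Y) (by nlinarith) w
      (Λ.erase i) (by rw [card_erase_of_mem hi]; omega) hY2
    have hdis : Disjoint Y Z := disjoint_left.2 fun p h1 h2 => (mem_sdiff.1 (hZs h2)).2 h1
    have hA : Fintype.card {p // p ∈ Y ∪ Z} = 2 * (m + 1) + 1 := by
      rw [Fintype.card_coe, card_union_of_disjoint hdis]; omega
    have hB : 2 * Fintype.card {p // ¬ p ∈ Y ∪ Z} = m * (m + 1) := by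
      rw [Fintype.card_subtype_compl, hA]
      have : 2 * Fintype.card P = m * (m + 1) + 2 * (2 * (m + 1) + 1) := by rw [hP]; ring
      omega
    have hv : ∀ p : {p // p ∈ Y ∪ Z}, ∃ a : Fin 4, ![i, k, j, l] a = w p := by
      rintro ⟨p, hp⟩
      rcases mem_union.1 hp with h | h
      · rcases hY1 p h with e | e
        · exact ⟨0, e.symm⟩
        · exact ⟨1, e.symm⟩
      · rcases hZ1 p h with e | e
        · exact ⟨2, e.symm⟩
        · exact ⟨3, e.symm⟩
    choose v hv using hv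
    refine Dt.transport (Equiv.sumCompl (fun p => p ∈ Y ∪ Z)) (stepA hA hB ![i, k, j, l] v ?_)
    refine ih _ hB ((Λ.erase i).erase j) (by
      rw [card_erase_of_mem hj, card_erase_of_mem hi]; omega) _ (fun p => w p) ?_ (fun p => ?_)
    · convert hf using 2
      funext p
      obtain ⟨q, rfl⟩ := (Equiv.sumCompl (fun p => p ∈ Y ∪ Z)).surjective p
      rcases q with q | q <;> simp [hv]
    · have := p.2
      exact hZ2 p (by simp only [mem_union, not_or] at this; simp [this.1, this.2])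

end Vale.Agent.P197
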