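import Vale.Agent.P197.StepA

namespace Vale.Agent.P197

open Finset Function Equiv

/-- Number of diagonal cells. -/
def dg {P β : Type*} [Fintype P] [DecidableEq β] (z : P → β × β) : ℕ :=
  (univ.filter (fun p => (z p).1 = (z p).2)).card

lemma dg_comp {P β : Type*} [Fintype P] [DecidableEq β] (z : P → β × β) (g : Perm P) :
    dg (z ∘ g) = dg z := card_equiv g (by simp)

lemma dg_sum {A B β : Type*} [Fintype A] [Fintype B] [DecidableEq β] (z : A ⊕ B → β × β) :
    dg z = dg (z ∘ Sum.inl) + dg (z ∘ Sum.inr) := by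
  simp only [dg, card_filter, Fintype.sum_sum_type]; rfl

lemma dg_le {M : ℕ} {β : Type*} [DecidableEq β] (z : Fin M → β × β) : dg z ≤ M :=
  (card_filter_le _ _).trans (by simp)

lemma dg_all {M : ℕ} {β : Type*} [DecidableEq β] {z : Fin M → β × β} (h : dg z = M) (p : Fin M) :
    (z p).1 = (z p).2 := by
  have := eq_univ_of_card (univ.filter (fun p => (z p).1 = (z p).2)) (by simpa [dg] using h)
  have h2 : p ∈ univ.filter (fun p => (z p).1 = (z p).2) := by rw [this]; exact mem_univ _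
  simpa using h2

/-- The cells of the first column after `k` moves. -/
def cell {M : ℕ} (k : ℕ) (i : Fin M) : Fin (M + 1) × Fin (M + 1) :=
  if i.1 < k then (i.castSucc, i.castSucc) else (Fin.last M, Fin.last M)

lemma delta {M : ℕ} {y : Fin M → Fin (M + 1) × Fin (M + 1)} (hy : ∀ p, (y p).1 = (y p).2) :
    K M (fun p => (y p).1) 0 (fun p => (y p).2) 0
      = ∑ σ : Perm (Fin M), if ∀ i, y (σ i) = cell M i then 1 else 0 := by
  have hc : ∀ i : Fin M, cell M i = (i.castSucc, i.castSucc) := fun i => by simp [cell]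
  by_cases h : ∃ σ : Perm (Fin M), ∀ i, y (σ i) = cell M i
  · obtain ⟨σ, hσ⟩ := h
    have h1 : ∀ p, y p = ((σ.symm p).castSucc, (σ.symm p).castSucc) := fun p => by
      rw [← hc, ← hσ]; simp
    rw [sum_eq_single σ, if_pos hσ]
    · unfold K
      rw [if_pos (fun p => by simp [h1])]
      simp only [← hy]
      refine D_self fun p q e => ?_
      simpa [h1, Fin.val_inj] using e
    · intro τ _ hτ
      rw [if_neg]
      intro h2
      refine hτ (Equiv.ext fun i => ?_)
      have := h1 (τ i)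
      rw [h2, hc] at this
      have : i = σ.symm (τ i) := by simpa using this
      rw [← σ.apply_symm_apply (τ i), ← this]
    · simp
  · rw [sum_eq_zero fun σ _ => if_neg fun e => h ⟨σ, e⟩]
    by_contra hK
    obtain ⟨b1, -, b3, -⟩ := K_ne hK
    let a : Fin M → Fin M := fun p => ⟨(y p).1, by simpa using b1 p⟩
    have ha : Injective a := fun p q e => b3 (by simpa [a] using e)
    refine h ⟨(Equiv.ofBijective a (Finite.injective_iff_bijective.1 ha)).symm, fun i => ?_⟩
    have := (Equiv.ofBijective a (Finite.injective_iff_bijective.1 ha)).apply_symm_apply i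
    generalize (Equiv.ofBijective a (Finite.injective_iff_bijective.1 ha)).symm i = p at this ⊢
    have h2 : (y p).1 = i.castSucc := Fin.ext (congrArg Fin.val this : (a p).1 = i.1)
    rw [hc]
    exact Prod.ext h2 ((hy p).symm.trans h2)

lemma cell_step {M : ℕ} {B : Type*} [DecidableEq B] (z : Fin M ⊕ B → Fin (M + 1) × Fin (M + 1))
    (k j : Fin M) :
    (z (Sum.inl j) = (k.castSucc, k.castSucc) ∧
      ∀ i, update z (Sum.inl j) (Fin.last M, Fin.last M) (Sum.inl i) = cell k i) ↔
    (k ≤ j ∧ ∀ i, (z ∘ swap (Sum.inl k) (Sum.inl j)) (Sum.inl i) = cell (k + 1) i) := by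
  have c1 : cell (k.1 + 1) k = (k.castSucc, k.castSucc) := by simp [cell]
  have c2 : ∀ i : Fin M, k ≤ i → cell k.1 i = (Fin.last M, Fin.last M) := fun i hi => by
    simp [cell, not_lt.2 hi]
  have c3 : ∀ i : Fin M, i ≠ k → cell (k.1 + 1) i = cell k.1 i := fun i hi => by
    have : i.1 ≠ k.1 := fun e => hi (Fin.ext e)
    have : i.1 < k.1 + 1 ↔ i.1 < k.1 := by omega
    simp only [cell, this]
  constructor
  · rintro ⟨h1, h2⟩
    have hkj : k ≤ j := by
      by_contra hlt
      have := h2 j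
      simp [cell, not_le.1 hlt, (Fin.castSucc_lt_last j).ne'] at this
    refine ⟨hkj, fun i => ?_⟩
    by_cases hi : i = k
    · subst hi; simp [h1, c1]
    · by_cases hij : i = j
      · subst hij
        have := h2 k
        rw [update_of_ne (by simpa using fun e => hi (Eq.symm e)), c2 k le_rfl] at this
        simp [this, c3 i hi, c2 i hkj]
      · have := h2 i
        rw [update_of_ne (by simpa using hij)] at this
        rw [comp_apply, swap_apply_of_ne_of_ne (by simpa using hi) (by simpa using hij), this,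
          c3 i hi]
  · rintro ⟨hkj, h2⟩
    refine ⟨by simpa [c1] using h2 k, fun i => ?_⟩
    by_cases hij : i = j
    · subst hij; simp [c2 i hkj]
    · rw [update_of_ne (by simpa using hij)]
      by_cases hi : i = k
      · subst hi
        have := h2 j
        rw [c3 j (fun e => hij e.symm), c2 j hkj] at this
        rw [c2 i le_rfl]
        simpa using this
      · have := h2 i
        rwa [comp_apply, swap_apply_of_ne_of_ne (by simpa using hi) (by simpa using hij),
          c3 i hi] at this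

theorem stepC {B α : Type*} [Fintype B] [DecidableEq B] {m : ℕ}
    {f : (Fin (m + 1) ⊕ B → α) → ℝ} (a : α)
    (hf : Dt m False (fun u : B → α => f (Sum.elim (fun _ => a) u))) : Dt (m + 1) False f := by
  classical
  obtain ⟨u₂, L₂, c₂, L₂', c₂', -, h₂⟩ := hf
  set u0 : Fin (m + 1) ⊕ B → α := Sum.elim (fun _ => a) u₂ with hu0
  have hu : ∀ (σ : Perm (Fin (m + 1))) (τ : Perm B),
      u0 ∘ ⇑(Equiv.sumCongr σ τ)⁻¹ = Sum.elim (fun _ => a) (u₂ ∘ ⇑τ⁻¹) := by
    intro σ τ; funext p; rcases p with p | p <;> rfl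
  set KK : (B → Fin (m + 2) × Fin (m + 2)) → ℝ :=
    fun z => K m (fun p => (z p).1) c₂ (fun p => (z p).2) c₂' with hKK
  set h : Perm (Fin (m + 1) ⊕ B) × (B → Fin (m + 2) × Fin (m + 2)) → ℝ := fun x =>
    ∑ τ : Perm B, f (Sum.elim (fun _ => a) (u₂ ∘ ⇑τ⁻¹) ∘ x.1) * KK (x.2 ∘ τ) with hh
  have hex : (univ.filter (fun x => h x ≠ 0)).Nonempty := by
    obtain ⟨g, _, hg⟩ := exists_ne_zero_of_sum_ne_zero h₂
    obtain ⟨b1, b2, -⟩ := K_ne (right_ne_zero_of_mul hg)
    refine ⟨(1, fun p => (⟨L₂ p, by have := b1 p; omega⟩, ⟨L₂' p, by have := b2 p; omega⟩)), ?_⟩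
    simp only [mem_filter, mem_univ, true_and, hh]
    rw [← Equiv.sum_comp (Equiv.inv (Perm B))]
    convert h₂ using 3 with τ
    · simp
    · rw [K_shift]; rfl
  obtain ⟨⟨g0, z0⟩, hx0, hmax⟩ := exists_max_image _ (fun x => dg x.2) hex
  have hx0' : h (g0, z0) ≠ 0 := by simpa using hx0
  have hmax' : ∀ g z, dg z0 < dg z → h (g, z) = 0 := fun g z hz => by
    by_contra h'
    exact absurd (hmax (g, z) (by simpa using h')) (not_le.2 hz)
  set κ : ℕ → (Fin (m + 1) ⊕ B → Fin (m + 2) × Fin (m + 2)) → ℝ := fun k z =>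
    if (∀ i, z (Sum.inl i) = cell k i) ∧ dg (z ∘ Sum.inr) = dg z0 then KK (z ∘ Sum.inr) else 0
    with hκ
  set T : ℕ → (Fin (m + 1) ⊕ B → Fin (m + 2) × Fin (m + 2)) → ℝ := fun k z =>
    ∑ g : Perm (Fin (m + 1) ⊕ B), f (u0 ∘ ⇑g⁻¹) * κ k (z ∘ g) with hT
  have hKlt : ∀ z, KK z ≠ 0 → ∀ p, ((z p).1 : ℕ) + c₂ p < m := fun z hz => (K_ne hz).1
  have T0 : T 0 ≠ 0 := by
    intro e
    have e1 := congrFun e (Sum.elim (fun _ => (Fin.last _, Fin.last _)) z0 ∘ g0)
    simp only [hT, Pi.zero_apply] at e1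
    rw [← Equiv.sum_comp (Equiv.mulLeft g0⁻¹), sum_perm_sum] at e1
    · have : ∀ σ : Perm (Fin (m + 1)), ∑ τ : Perm B,
          f (u0 ∘ ⇑((Equiv.mulLeft g0⁻¹) (Equiv.sumCongr σ τ))⁻¹) *
          κ 0 ((Sum.elim (fun _ => (Fin.last _, Fin.last _)) z0 ∘ g0) ∘
            ⇑((Equiv.mulLeft g0⁻¹) (Equiv.sumCongr σ τ))) = h (g0, z0) := by
        intro σ
        refine sum_congr rfl fun τ _ => ?_
        have a1 : (Sum.elim (fun _ => (Fin.last _, Fin.last _)) z0 ∘ g0) ∘
            ⇑((Equiv.mulLeft g0⁻¹) (Equiv.sumCongr σ τ))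
            = Sum.elim (fun _ => (Fin.last _, Fin.last _)) (z0 ∘ τ) := by
          funext p; rcases p with p | p <;> simp
        rw [a1, ← hu σ τ]
        congr 1
        simp [hκ, cell, dg_comp]
      rw [sum_congr rfl fun σ _ => this σ, sum_const, nsmul_eq_mul] at e1
      exact mul_ne_zero (by exact_mod_cast card_ne_zero.2 univ_nonempty) hx0' e1
    · intro g hg p
      have h1 := right_ne_zero_of_mul hg
      simp only [hκ] at h1
      have h2 := hKlt _ (fun e => h1 (by rw [e, ite_self])) p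
      rcases hq : g (Sum.inr p) with q | q
      · simp [hq] at h2; omega
      · exact ⟨q, rfl⟩
  have Tstep : ∀ k : Fin (m + 1), T (k + 1) = 0 → T k = 0 := by
    intro k hk
    have hne : ((Fin.last _, Fin.last _) : Fin (m + 2) × Fin (m + 2))
        ≠ (k.castSucc, k.castSucc) := by simp [(Fin.castSucc_lt_last k).ne']
    refine mv_inj (S := univ) hne (fun z hz => ?_) ?_
    · obtain ⟨g, _, hg⟩ := exists_ne_zero_of_sum_ne_zero hz
      have h1 := right_ne_zero_of_mul hg
      simp only [hκ] at h1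
      split_ifs at h1 with h2
      swap
      · exact absurd rfl h1
      have e : ∀ x, cnt univ z x = cnt univ (z ∘ g) x := fun x =>
        (card_equiv g (by simp)).symm
      rw [e, e]
      generalize z ∘ g = y at h1 h2
      obtain ⟨b1, -, b3, -⟩ := K_ne h1
      have l1 : m + 1 - k ≤ cnt univ y (Fin.last _, Fin.last _) := by
        rw [← Fin.card_Ici k]
        refine card_le_card_of_injOn Sum.inl (fun i hi => ?_) Sum.inl_injective.injOn
        have : ¬ i.1 < k.1 := not_lt.2 (show k ≤ i by simpa using hi)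
        simp [h2.1 i, cell, this]
      have hin : ∀ q, y q = (k.castSucc, k.castSucc) → ∃ p, q = Sum.inr p := by
        rintro (i | p) hq
        · rw [h2.1 i] at hq
          unfold cell at hq
          split_ifs at hq with h3
          · have : i = k := by simpa using hq
            omega
          · exact absurd hq hne
        · exact ⟨p, rfl⟩
      have l2 : cnt univ y (k.castSucc, k.castSucc) ≤ (range (m - k)).card := by
        refine card_le_card_of_injOn (Sum.elim (fun _ => 0) c₂) (fun q hq => ?_)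
          (fun q hq q' hq' e => ?_)
        · have hq1 : y q = (k.castSucc, k.castSucc) := by simpa using hq
          obtain ⟨p, rfl⟩ := hin q hq1
          have := b1 p
          simp only [comp_apply, hq1, Fin.val_castSucc] at this
          simp only [Sum.elim_inr, coe_range, Set.mem_Iio]; omega
        · have hq1 : y q = (k.castSucc, k.castSucc) := by simpa using hq
          have hq2 : y q' = (k.castSucc, k.castSucc) := by simpa using hq'
          obtain ⟨p, rfl⟩ := hin q hq1
          obtain ⟨p', rfl⟩ := hin q' hq2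
          rw [b3 (a₁ := p) (a₂ := p') (by simpa [hq1, hq2] using e)]
      rw [card_range] at l2
      have := k.2
      omega
    · funext z
      have e1 : ∀ g : Perm (Fin (m + 1) ⊕ B), (∑ p, if z p = (k.castSucc, k.castSucc) then
          f (u0 ∘ ⇑g⁻¹) * κ k (update z p (Fin.last _, Fin.last _) ∘ g) else 0)
          = ∑ j : Fin (m + 1), if k ≤ j then f (u0 ∘ ⇑((g * Equiv.swap (Sum.inl k) (Sum.inl j))⁻¹ : Perm _)) *
            κ (k + 1) (z ∘ ⇑(g * Equiv.swap (Sum.inl k) (Sum.inl j) : Perm _)) else 0 := by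
        intro g
        rw [← Equiv.sum_comp g, Fintype.sum_sum_type]
        rw [sum_eq_zero (s := univ) (f := fun p : B => _) (fun p _ => ?_), add_zero]
        · refine sum_congr rfl fun j _ => ?_
          have a1 : u0 ∘ ⇑((g * Equiv.swap (Sum.inl k) (Sum.inl j))⁻¹ : Perm _) = u0 ∘ ⇑g⁻¹ := by
            funext p
            simp only [mul_inv_rev, swap_inv, Perm.coe_mul, comp_apply]
            rw [swap_apply_def]; split_ifs with b1 b2 <;> simp [hu0, *]
          have a2 : update z (g (Sum.inl j)) (Fin.last _, Fin.last _) ∘ g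
              = update (z ∘ g) (Sum.inl j) (Fin.last _, Fin.last _) := by
            rw [update_comp_equiv]; simp
          have a3 : update (z ∘ g) (Sum.inl j) (Fin.last _, Fin.last _) ∘ Sum.inr
              = (z ∘ g) ∘ Sum.inr := by funext p; simp
          have a4 : ((z ∘ g) ∘ swap (Sum.inl k) (Sum.inl j)) ∘ Sum.inr = (z ∘ g) ∘ Sum.inr := by
            funext p; simp [swap_apply_def]
          have a5 := cell_step (z ∘ g) k j
          rw [a1, a2, Perm.coe_mul, ← comp_assoc]
          simp only [hκ, a3, a4, mul_ite, mul_zero, ← ite_and, ← and_assoc, ← a5]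
          rfl
        · have a2 : update z (g (Sum.inr p)) (Fin.last _, Fin.last _) ∘ g
              = update (z ∘ g) (Sum.inr p) (Fin.last _, Fin.last _) := by
            rw [update_comp_equiv]; simp
          have : KK (update (z ∘ g) (Sum.inr p) (Fin.last _, Fin.last _) ∘ Sum.inr) = 0 := by
            by_contra h'
            have := hKlt _ h' p
            simp at this; omega
          simp only [a2, hκ, this, ite_self, mul_zero]
      have e2 : mv univ (Fin.last _, Fin.last _) (k.castSucc, k.castSucc) (T k) z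
          = ∑ g : Perm (Fin (m + 1) ⊕ B), ∑ p, if z p = (k.castSucc, k.castSucc) then
          f (u0 ∘ ⇑g⁻¹) * κ k (update z p (Fin.last _, Fin.last _) ∘ g) else 0 := by
        rw [sum_comm]
        refine sum_congr rfl fun p _ => ?_
        split_ifs
        · rfl
        · simp
      rw [e2, sum_congr rfl fun g _ => e1 g, sum_comm]
      refine sum_eq_zero fun j _ => ?_
      split_ifs
      · exact (Equiv.sum_comp (Equiv.mulRight (Equiv.swap (Sum.inl k) (Sum.inl j)))
          (fun g => f (u0 ∘ ⇑g⁻¹) * κ (k + 1) (z ∘ g))).trans (congrFun hk z)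
      · simp
  have Tall : ∀ k, k ≤ m + 1 → T k ≠ 0 := by
    intro k
    induction k with
    | zero => exact fun _ => T0
    | succ k ih => exact fun hk e => ih (by omega) (Tstep ⟨k, by omega⟩ e)
  obtain ⟨z, hz⟩ := Function.ne_iff.1 (Tall (m + 1) le_rfl)
  have hdg : dg z = m + 1 + dg z0 := by
    obtain ⟨g, _, hg⟩ := exists_ne_zero_of_sum_ne_zero hz
    have h1 := right_ne_zero_of_mul hg
    simp only [hκ] at h1
    split_ifs at h1 with h2
    swap
    · exact absurd rfl h1
    rw [← dg_comp z g, dg_sum, h2.2]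
    congr 1
    unfold dg
    rw [filter_true_of_mem fun i _ => by rw [comp_apply, h2.1 i, cell, if_pos i.2]]
    simp
  refine ⟨u0, fun p => (z p).1, Sum.elim 0 (fun p => c₂ p + 1), fun p => (z p).2,
    Sum.elim 0 (fun p => c₂' p + 1), False.elim, ?_⟩
  rw [← Equiv.sum_comp (Equiv.inv _)]
  set δ : (Fin (m + 1) → Fin (m + 2) × Fin (m + 2)) → ℝ :=
    fun y => K (m + 1) (fun p => (y p).1) 0 (fun p => (y p).2) 0 with hδ
  have e1 : ∀ g : Perm (Fin (m + 1) ⊕ B), f (u0 ∘ ⇑(Equiv.inv _ g)) *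
      K (m + 1) (fun p => (z p).1) (Sum.elim 0 (fun p => c₂ p + 1) ∘ ⇑(Equiv.inv _ g))
        (fun p => (z p).2) (Sum.elim 0 (fun p => c₂' p + 1) ∘ ⇑(Equiv.inv _ g))
      = (∑ σ : Perm (Fin (m + 1)), f (u0 ∘ ⇑((g * Perm.sumCongr σ 1)⁻¹ : Perm _)) *
          κ (m + 1) (z ∘ ⇑(g * Perm.sumCongr σ 1 : Perm _))) +
        if dg z0 < dg ((z ∘ g) ∘ Sum.inr) then
          δ ((z ∘ g) ∘ Sum.inl) * (f (u0 ∘ ⇑g⁻¹) * KK ((z ∘ g) ∘ Sum.inr)) else 0 := by
    intro g
    rw [Equiv.inv_apply, K_shift, inv_inv, K_sum (c₁' := 0) _ _ _ _ (fun _ => Nat.one_pos)]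
    change f (u0 ∘ ⇑g⁻¹) * (δ ((z ∘ g) ∘ Sum.inl) * KK ((z ∘ g) ∘ Sum.inr)) = _
    have a1 : ∀ σ : Perm (Fin (m + 1)), u0 ∘ ⇑((g * Perm.sumCongr σ 1)⁻¹ : Perm _) = u0 ∘ ⇑g⁻¹ := by
      intro σ
      rw [mul_inv_rev, Perm.coe_mul, ← comp_assoc, hu]; rfl
    have a2 : ∀ σ : Perm (Fin (m + 1)),
        (z ∘ ⇑(g * Perm.sumCongr σ 1 : Perm _)) ∘ Sum.inr = (z ∘ g) ∘ Sum.inr := fun σ => rfl
    have a3 := dg_sum (z ∘ g)
    have a4 := dg_le ((z ∘ g) ∘ Sum.inl)
    rw [dg_comp, hdg] at a3
    simp only [a1, hκ, a2]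
    by_cases hlt : dg z0 < dg ((z ∘ g) ∘ Sum.inr)
    · simp only [hlt, hlt.ne', and_false, if_false, if_true, mul_zero, sum_const_zero]; ring
    · have a5 : dg ((z ∘ g) ∘ Sum.inr) = dg z0 := by omega
      simp only [hδ]
      rw [delta (dg_all (by omega)), if_neg hlt, add_zero, sum_mul, mul_sum]
      refine sum_congr rfl fun σ _ => ?_
      simp only [a5, and_true, ite_mul, one_mul, zero_mul]
      rfl
  rw [sum_congr rfl fun g _ => e1 g, sum_add_distrib, sum_comm]
  have e2 : ∀ σ : Perm (Fin (m + 1)), ∑ g : Perm (Fin (m + 1) ⊕ B),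
      f (u0 ∘ ⇑((g * Perm.sumCongr σ 1)⁻¹ : Perm _)) * κ (m + 1) (z ∘ ⇑(g * Perm.sumCongr σ 1 : Perm _))
      = T (m + 1) z := fun σ => Equiv.sum_comp (Equiv.mulRight (Equiv.sumCongr σ 1))
        (fun g => f (u0 ∘ ⇑g⁻¹) * κ (m + 1) (z ∘ g))
  set F : Perm (Fin (m + 1) ⊕ B) → ℝ := fun g => if dg z0 < dg ((z ∘ g) ∘ Sum.inr) then
    δ ((z ∘ g) ∘ Sum.inl) * (f (u0 ∘ ⇑g⁻¹) * KK ((z ∘ g) ∘ Sum.inr)) else 0 with hF
  have e3 : ∑ _τ : Perm B, ∑ g, F g = 0 := by
    rw [sum_congr rfl fun τ _ => (Equiv.sum_comp (Equiv.mulRight (Equiv.sumCongr 1 τ)) F).symm,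
      sum_comm]
    refine sum_eq_zero fun g _ => ?_
    have a1 : ∀ τ : Perm B, F (Equiv.mulRight (Equiv.sumCongr 1 τ) g) =
        if dg z0 < dg ((z ∘ g) ∘ Sum.inr) then δ ((z ∘ g) ∘ Sum.inl) *
          (f (Sum.elim (fun _ => a) (u₂ ∘ ⇑τ⁻¹) ∘ ⇑g⁻¹) * KK (((z ∘ g) ∘ Sum.inr) ∘ τ))
        else 0 := by
      intro τ
      rw [← dg_comp ((z ∘ g) ∘ Sum.inr) τ, ← hu 1 τ]
      rfl
    simp only [a1]
    split_ifs with hlt
    · rw [← mul_sum]
      exact mul_eq_zero_of_right _ (hmax' g⁻¹ _ hlt)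
    · simp
  rw [sum_const, nsmul_eq_mul] at e3
  rw [(mul_eq_zero.1 e3).resolve_left (by exact_mod_cast card_ne_zero.2 univ_nonempty), add_zero,
    sum_congr rfl fun σ _ => e2 σ, sum_const, nsmul_eq_mul]
  exact mul_ne_zero (by exact_mod_cast card_ne_zero.2 univ_nonempty) hz

end Vale.Agent.P197
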